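import Vale.Agent.P323.Snf

/-! P323, module ACM: a least stabilizer gives AC in the model. -/

namespace Vale.Agent.P323

universe u

variable {A G : Type u} [Group G] [MulAction G A]

private theorem ACM_elts {F : NormalFilter G} {x y : V A} (hx : HS F x) (hy : y ∈ x) : HS F y := by
  cases hx with
  | intro _ _ elts => exact elts y hy

private theorem ACM_fix {F : NormalFilter G} {N : Subgroup G}
    (hmin : ∀ H ∈ Stabs F A, N ≤ H) {x : V A} (hx : HS F x) {k : G} (hk : k ∈ N) : k • x = x :=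
  MulAction.mem_stabilizer_iff.1 (hmin _ ⟨x, hx, rfl⟩ hk)

/-- ACM. `N` fixes every element of the model. Given `X`, take a family `f : ι → V A` of its
elements (`exists_family`), choose for every `x ∈ X` an element `ch x ∈ x` and let
`c = range (fun i => pair (f i) (ch (f i)))`; `N` fixes all these pairs, so `HS_range` applies
(`HS X` gives `HS` of the elements and of their elements, by cases on `HS`). -/
theorem ac_of_least (F : NormalFilter G) (N : Subgroup G) (hN : N ∈ Stabs F A)
    (hmin : ∀ H ∈ Stabs F A, N ≤ H) : ACModel F A := by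
  classical
  intro X hX hne
  obtain ⟨ι, f, hf⟩ := exists_family X
  have hch : ∃ ch : V A → V A, ∀ x ∈ X, ch x ∈ x := by
    refine ⟨fun x => if h : ∃ y, y ∈ x then h.choose else x, fun x hx => ?_⟩
    have h := hne x hx
    beta_reduce
    rw [dif_pos h]
    exact h.choose_spec
  obtain ⟨ch, hch⟩ := hch
  have hfX : ∀ i, f i ∈ X := fun i => (hf _).2 ⟨i, rfl⟩
  have hHS : ∀ i, HS F (V.pair (f i) (ch (f i))) := fun i =>
    HS_pair F (ACM_elts hX (hfX i)) (ACM_elts (ACM_elts hX (hfX i)) (hch _ (hfX i)))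
  refine ⟨V.range (fun i => V.pair (f i) (ch (f i))),
    HS_range F _ hHS N (stabs_sub F hN) (fun k hk i => ⟨i, ACM_fix hmin (hHS i) hk⟩), ?_, ?_⟩
  · intro z hz
    obtain ⟨i, hi⟩ := (V.mem_range _ _).1 hz
    exact ⟨f i, hfX i, ch (f i), hch _ (hfX i), hi.symm⟩
  · intro x hx
    obtain ⟨i, rfl⟩ := (hf x).1 hx
    refine ⟨ch (f i), (V.mem_range _ _).2 ⟨i, rfl⟩, ?_⟩
    intro y hy
    obtain ⟨j, hj⟩ := (V.mem_range _ _).1 hy
    obtain ⟨h1, h2⟩ := pair_inj.1 hj
    rw [← h2, h1]

end Vale.Agent.P323
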