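import Vale.Agent.P323.Defs

/-! P323, module CAN1. -/

namespace Vale.Agent.P323

universe u

variable {G : Type u} [Group G]

/-- The relation used for the Cantor scheme. -/
def Rel (S : Set (Subgroup G)) (L M : Subgroup G) : Prop :=
  L ∈ S ∧ M ∈ S ∧ ∃ M', Star S M' M ∧ L ≤ M'

theorem can1_cj_self {g : G} {M : Subgroup G} (hg : g ∈ M) : cj g M = M := by
  ext x
  rw [mem_cj]
  constructor
  · intro h
    have := M.mul_mem (M.mul_mem hg h) (M.inv_mem hg)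
    simpa [mul_assoc] using this
  · intro h
    exact M.mul_mem (M.mul_mem (M.inv_mem hg) h) hg

theorem can1_cj_cj (g h : G) (M : Subgroup G) : cj g (cj h M) = cj (g * h) M := by
  ext x
  rw [mem_cj, mem_cj, mem_cj]
  simp [mul_assoc]

theorem can1_cj_mono (g : G) {M N : Subgroup G} (h : M ≤ N) : cj g M ≤ cj g N := by
  intro x hx
  rw [mem_cj] at hx ⊢
  exact h hx

theorem can1_cj_one (M : Subgroup G) : cj 1 M = M := by
  ext x
  rw [mem_cj]
  simp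

/-- CAN1: if there is no least element then `Rel` is strict. (`Star S M' M` and `M' = M`
would make `M` least, as `cj g M = M` for `g ∈ M`.) -/
theorem rel_lt {S : Set (Subgroup G)} (hS : IsNF S) (hno : ¬ ∃ N ∈ S, ∀ H ∈ S, N ≤ H)
    {L M : Subgroup G} (h : Rel S L M) : L < M := by
  obtain ⟨_, hM, M', ⟨hM'S, hM'M, hst⟩, hLM'⟩ := h
  refine lt_of_le_of_ne (hLM'.trans hM'M) ?_
  intro hLM
  subst hLM
  have hEq : M' = L := le_antisymm hM'M hLM'
  subst hEq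
  refine hno ⟨M', hM, fun H hH => ?_⟩
  obtain ⟨g, hg, hle⟩ := hst H hH
  rwa [can1_cj_self hg] at hle

/-- CAN1: `Rel` is dense. Given `L ≤ M'`, `Star S M' M`, take `M''` with `Star S M'' M'` and
`g ∈ M` with `cj g M' ≤ M''`; put `N = cj g⁻¹ M'`. Then `Star S (cj g⁻¹ M'') N` (conjugation
preserves `Star`), `M' ≤ cj g⁻¹ M''`, and `Star S N M`. -/
theorem rel_dense {S : Set (Subgroup G)} (hS : IsNF S)
    (hst : ∀ K ∈ S, ∃ K', Star S K' K) {L M : Subgroup G} (h : Rel S L M) :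
    ∃ N, Rel S L N ∧ Rel S N M := by
  obtain ⟨hL, hM, M', ⟨hM'S, hM'M, hstar⟩, hLM'⟩ := h
  obtain ⟨M2, hM2S, hM2M', hstar2⟩ := hst M' hM'S
  obtain ⟨g, hg, hgle⟩ := hstar M2 hM2S
  have hN : cj g⁻¹ M' ∈ S := hS.conj_mem _ hM'S
  refine ⟨cj g⁻¹ M', ⟨hL, hN, cj g⁻¹ M2, ⟨hS.conj_mem _ hM2S, can1_cj_mono _ hM2M', ?_⟩, ?_⟩,
    ⟨hN, hM, cj g⁻¹ M', ⟨hN, ?_, ?_⟩, le_rfl⟩⟩
  · intro H hH
    obtain ⟨k, hk, hle⟩ := hstar2 (cj g H) (hS.conj_mem _ hH)
    refine ⟨g⁻¹ * k * g, ?_, ?_⟩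
    · rw [mem_cj]
      simpa [mul_assoc] using hk
    · have h1 := can1_cj_mono g⁻¹ hle
      rw [can1_cj_cj, can1_cj_cj, inv_mul_cancel, can1_cj_one] at h1
      rw [can1_cj_cj]
      simpa [mul_assoc] using h1
  · have h1 := can1_cj_mono g⁻¹ hgle
    rw [can1_cj_cj, inv_mul_cancel, can1_cj_one] at h1
    exact hLM'.trans h1
  · have h1 := can1_cj_mono g⁻¹ hM'M
    rwa [can1_cj_self (M.inv_mem hg)] at h1
  · intro H hH
    obtain ⟨k, hk, hle⟩ := hstar H hH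
    refine ⟨k * g, M.mul_mem hk hg, ?_⟩
    rw [can1_cj_cj]
    simpa [mul_assoc] using hle

end Vale.Agent.P323
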