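import Mathlib

/-! P323, module CAN2. -/

namespace Vale.Agent.P323

universe u

section CAN2

variable {α : Type u} [CompleteLattice α] (R : α → α → Prop)

private noncomputable def CAN2_mid (hd : ∀ a b, R a b → ∃ n, R a n ∧ R n b)
    (p : {p : α × α // R p.1 p.2}) : α := (hd p.1.1 p.1.2 p.2).choose

private theorem CAN2_mid_spec (hd : ∀ a b, R a b → ∃ n, R a n ∧ R n b)
    (p : {p : α × α // R p.1 p.2}) :
    R p.1.1 (CAN2_mid R hd p) ∧ R (CAN2_mid R hd p) p.1.2 :=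
  (hd p.1.1 p.1.2 p.2).choose_spec

private noncomputable def CAN2_mid2 (hd : ∀ a b, R a b → ∃ n, R a n ∧ R n b)
    (p : {p : α × α // R p.1 p.2}) : α :=
  (hd (CAN2_mid R hd p) p.1.2 (CAN2_mid_spec R hd p).2).choose

private theorem CAN2_mid2_spec (hd : ∀ a b, R a b → ∃ n, R a n ∧ R n b)
    (p : {p : α × α // R p.1 p.2}) :
    R (CAN2_mid R hd p) (CAN2_mid2 R hd p) ∧ R (CAN2_mid2 R hd p) p.1.2 :=
  (hd (CAN2_mid R hd p) p.1.2 (CAN2_mid_spec R hd p).2).choose_spec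

private noncomputable def CAN2_next (hd : ∀ a b, R a b → ∃ n, R a n ∧ R n b)
    (p : {p : α × α // R p.1 p.2}) (t : Bool) : {p : α × α // R p.1 p.2} :=
  if t = true then ⟨(CAN2_mid2 R hd p, p.1.2), (CAN2_mid2_spec R hd p).2⟩
  else ⟨(p.1.1, CAN2_mid R hd p), (CAN2_mid_spec R hd p).1⟩

private noncomputable def CAN2_I (hd : ∀ a b, R a b → ∃ n, R a n ∧ R n b)
    (p : {p : α × α // R p.1 p.2}) (x : ℕ → Bool) : ℕ → {p : α × α // R p.1 p.2}
  | 0 => p
  | n + 1 => CAN2_next R hd (CAN2_I hd p x n) (x n)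

private theorem CAN2_I_congr (hd : ∀ a b, R a b → ∃ n, R a n ∧ R n b)
    (p : {p : α × α // R p.1 p.2}) (x y : ℕ → Bool) (n : ℕ) (h : ∀ k < n, x k = y k) :
    CAN2_I R hd p x n = CAN2_I R hd p y n := by
  induction n with
  | zero => rfl
  | succ n ih =>
    have h1 := ih (fun k hk => h k (by omega))
    have h2 := h n (by omega)
    simp only [CAN2_I]
    rw [h1, h2]

private theorem CAN2_step (hlt : ∀ a b, R a b → a < b)
    (hd : ∀ a b, R a b → ∃ n, R a n ∧ R n b)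
    (p : {p : α × α // R p.1 p.2}) (t : Bool) :
    p.1.1 ≤ (CAN2_next R hd p t).1.1 ∧ (CAN2_next R hd p t).1.2 ≤ p.1.2 := by
  have h1 := CAN2_mid_spec R hd p
  have h2 := CAN2_mid2_spec R hd p
  unfold CAN2_next
  split_ifs
  · exact ⟨((hlt _ _ h1.1).trans (hlt _ _ h2.1)).le, le_rfl⟩
  · exact ⟨le_rfl, (hlt _ _ h1.2).le⟩

private theorem CAN2_mono (hlt : ∀ a b, R a b → a < b)
    (hd : ∀ a b, R a b → ∃ n, R a n ∧ R n b)
    (p : {p : α × α // R p.1 p.2}) (x : ℕ → Bool) :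
    Monotone (fun n => (CAN2_I R hd p x n).1.1) :=
  monotone_nat_of_le_succ fun n => (CAN2_step R hlt hd (CAN2_I R hd p x n) (x n)).1

private theorem CAN2_anti (hlt : ∀ a b, R a b → a < b)
    (hd : ∀ a b, R a b → ∃ n, R a n ∧ R n b)
    (p : {p : α × α // R p.1 p.2}) (x : ℕ → Bool) :
    Antitone (fun n => (CAN2_I R hd p x n).1.2) :=
  antitone_nat_of_succ_le fun n => (CAN2_step R hlt hd (CAN2_I R hd p x n) (x n)).2

private theorem CAN2_T_le (hlt : ∀ a b, R a b → a < b)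
    (hd : ∀ a b, R a b → ∃ n, R a n ∧ R n b)
    (p : {p : α × α // R p.1 p.2}) (x : ℕ → Bool) (m : ℕ) :
    (⨆ n, (CAN2_I R hd p x n).1.1) ≤ (CAN2_I R hd p x m).1.2 := by
  refine iSup_le fun n => ?_
  have h1 := CAN2_mono R hlt hd p x (le_max_left n m)
  have h2 := CAN2_anti R hlt hd p x (le_max_right n m)
  exact (h1.trans (hlt _ _ (CAN2_I R hd p x (max n m)).2).le).trans h2

private theorem CAN2_lt (hlt : ∀ a b, R a b → a < b)
    (hd : ∀ a b, R a b → ∃ n, R a n ∧ R n b)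
    (p : {p : α × α // R p.1 p.2}) (x y : ℕ → Bool) (n : ℕ) (h : ∀ k < n, x k = y k)
    (hx : x n = false) (hy : y n = true) :
    (⨆ n, (CAN2_I R hd p x n).1.1) < (⨆ n, (CAN2_I R hd p y n).1.1) := by
  have h1 := CAN2_T_le R hlt hd p x (n + 1)
  have h2 : (CAN2_I R hd p y (n + 1)).1.1 ≤ ⨆ n, (CAN2_I R hd p y n).1.1 :=
    le_iSup (fun n => (CAN2_I R hd p y n).1.1) (n + 1)
  have h3 : (CAN2_I R hd p x (n + 1)).1.2 = CAN2_mid R hd (CAN2_I R hd p x n) := by
    simp [CAN2_I, CAN2_next, hx]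
  have h4 : (CAN2_I R hd p y (n + 1)).1.1 = CAN2_mid2 R hd (CAN2_I R hd p x n) := by
    rw [CAN2_I_congr R hd p x y n h]
    simp [CAN2_I, CAN2_next, hy]
  rw [h3] at h1
  rw [h4] at h2
  exact (h1.trans_lt (hlt _ _ (CAN2_mid2_spec R hd (CAN2_I R hd p x n)).1)).trans_le h2

end CAN2

/-- CAN2: Cantor scheme for a strict dense relation contained in `<` of a complete lattice:
split `(a, b)` as `a R n₁ R n₂ R b`, keep `(a, n₁)` and `(n₂, b)`; `T x = ⨆ n, a_{x|n}`. -/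
theorem cantor_scheme {α : Type u} [CompleteLattice α] (R : α → α → Prop)
    (hlt : ∀ a b, R a b → a < b) (hd : ∀ a b, R a b → ∃ n, R a n ∧ R n b)
    {a b : α} (hab : R a b) :
    ∃ T : (ℕ → Bool) → α, Function.Injective T ∧ ∀ x, a ≤ T x ∧ T x ≤ b := by
  refine ⟨fun x => ⨆ n, (CAN2_I R hd ⟨(a, b), hab⟩ x n).1.1, ?_, fun x => ⟨?_, ?_⟩⟩
  · intro x y hxy
    by_contra hne
    have hex : ∃ n, x n ≠ y n := by
      by_contra hcon
      push Not at hcon
      exact hne (funext hcon)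
    classical
    have hn := Nat.find_spec hex
    have hmin : ∀ k < Nat.find hex, x k = y k := fun k hk => by
      have := Nat.find_min hex hk
      simpa using this
    rcases hbx : x (Nat.find hex) with _ | _
    · have hby : y (Nat.find hex) = true := by
        rw [hbx] at hn
        simpa using hn.symm
      exact (CAN2_lt R hlt hd ⟨(a, b), hab⟩ x y _ hmin hbx hby).ne hxy
    · have hby : y (Nat.find hex) = false := by
        rw [hbx] at hn
        simpa using hn.symm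
      exact (CAN2_lt R hlt hd ⟨(a, b), hab⟩ y x _ (fun k hk => (hmin k hk).symm) hby hbx).ne
        hxy.symm
  · exact le_iSup (fun n => (CAN2_I R hd ⟨(a, b), hab⟩ x n).1.1) 0
  · exact CAN2_T_le R hlt hd ⟨(a, b), hab⟩ x 0

end Vale.Agent.P323
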