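import Vale.Agent.P323.Uni2

/-! P323, module CODE. -/

namespace Vale.Agent.P323

universe u

variable {A G : Type u} [Group G] [MulAction G A]

variable (F : NormalFilter G)

/-- CODE: every small type is coded by pure sets (von Neumann ordinals: well-order `ι` by
`WellOrderingRel`, `c i = range (fun j : {j // j < i} => c j)`, by well-founded recursion;
injective since membership of `V A` is well-founded / irreflexive). -/
theorem exists_code (A : Type u) [MulAction G A] (ι : Type u) :
    ∃ c : ι → V A, Function.Injective c ∧ (∀ (g : G) i, g • c i = c i) ∧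
      ∀ i, HS F (c i) := by
  have wf : WellFounded (WellOrderingRel : ι → ι → Prop) := WellOrderingRel.isWellOrder.wf
  obtain ⟨c, hc⟩ : ∃ c : ι → V A, ∀ i,
      c i = V.range (fun j : {j : ι // WellOrderingRel j i} => c j.1) :=
    ⟨wf.fix (fun i ih => V.range (fun j : {j : ι // WellOrderingRel j i} => ih j.1 j.2)),
      fun i => wf.fix_eq _ i⟩
  have hmem : ∀ i x, x ∈ c i ↔ ∃ j : {j : ι // WellOrderingRel j i}, c j.1 = x := by
    intro i x
    have h1 := V.mem_range (fun j : {j : ι // WellOrderingRel j i} => c j.1) x
    rwa [← hc i] at h1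
  have hne : ∀ i j, WellOrderingRel j i → c j ≠ c i := by
    intro i
    induction i using wf.induction with
    | _ i ih =>
      intro j hji h
      have h1 : c j ∈ c i := (hmem i _).2 ⟨⟨j, hji⟩, rfl⟩
      rw [← h] at h1
      obtain ⟨⟨k, hk⟩, h2⟩ := (hmem j _).1 h1
      exact ih j hji k hk h2
  have hfix : ∀ (g : G) i, g • c i = c i := by
    intro g i
    induction i using wf.induction with
    | _ i ih =>
      rw [hc i, smul_range]
      congr 1
      funext j
      exact ih j.1 j.2
  refine ⟨c, fun i j hij => ?_, hfix, fun i => ?_⟩
  · have := (WellOrderingRel.isWellOrder : IsWellOrder ι WellOrderingRel)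
    rcases trichotomous_of (WellOrderingRel : ι → ι → Prop) i j with h | h | h
    · exact absurd hij (hne j i h)
    · exact h
    · exact absurd hij.symm (hne i j h)
  · induction i using wf.induction with
    | _ i ih =>
      rw [hc i]
      exact HS_range F _ (fun j => ih j.1 j.2) ⊤ F.top_mem fun k _ j => ⟨j, hfix k j.1⟩

end Vale.Agent.P323
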