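import Vale.Agent.P323.Defs

/-! P323, module CNT: few members of the filter below a suitable `K1`. -/

namespace Vale.Agent.P323

universe u

variable {G : Type u} [Group G]

theorem CNT_out {K' : Subgroup G} (a : G) :
    ∃ h ∈ K', (Quotient.out (a : G ⧸ K')) = a * h := by
  refine ⟨a⁻¹ * Quotient.out (a : G ⧸ K'), ?_, by group⟩
  have h1 : ((Quotient.out (a : G ⧸ K') : G) : G ⧸ K') = (a : G ⧸ K') := Quotient.out_eq _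
  exact QuotientGroup.eq.1 h1.symm

theorem CNT_eq {T : Subgroup G} {a b : G} (h : a⁻¹ * b ∈ T) :
    ((a : G) : G ⧸ T) = (b : G ⧸ T) := QuotientGroup.eq.2 h

theorem CNT_key {T K' : Subgroup G} {g : G} (hg : cj g K' ≤ T) {h : G} (hh : h ∈ K') (a : G) :
    ((a * h * g⁻¹ : G) : G ⧸ T) = ((a * g⁻¹ : G) : G ⧸ T) := by
  apply CNT_eq
  have h1 : (a * h * g⁻¹)⁻¹ * (a * g⁻¹) = g * h⁻¹ * g⁻¹ := by group
  rw [h1]
  apply hg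
  rw [mem_cj]
  have h2 : g⁻¹ * (g * h⁻¹ * g⁻¹) * g = h⁻¹ := by group
  rw [h2]
  exact K'.inv_mem hh

/-- CNT. Apply PPG to `K`, `I = J = {T // T ∈ S ∧ T ≤ K}`, `H T = K'`, `L T = T`,
`X = {⟨T, k K'⟩ : k ∈ K}`, `Y = {⟨T, k T⟩ : k ∈ K}`, `f ⟨T, z⟩ = ⟨T, (z.out * (g T)⁻¹ : G ⧸ T)⟩`
where `g T ∈ K`, `cj (g T) K' ≤ T`. If `T ≤ K1` and `j ⟨T, 1⟩ = ⟨T', z⟩` then for `g ∈ K1`:
`g ∈ T ↔ g • ⟨T, 1⟩ = ⟨T, 1⟩ ↔ g • z = z`. Put `c T = z`. -/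
theorem count_main {S : Set (Subgroup G)} (hS : IsNF S) (hP : PPG S) {K K' : Subgroup G}
    (hK : K ∈ S) (hst : Star S K' K) :
    ∃ K1 ∈ S, K1 ≤ K ∧ ∃ c : {T : Subgroup G // T ∈ S ∧ T ≤ K1} → G ⧸ K',
      ∀ T, T.1 = K1 ⊓ MulAction.stabilizer G (c T) := by
  obtain ⟨hK'S, hK'K, hcj⟩ := hst
  choose g hgK hgT using hcj
  let I : Type u := {T : Subgroup G // T ∈ S ∧ T ≤ K}
  let H : I → Subgroup G := fun _ => K'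
  let L : I → Subgroup G := fun T => T.1
  let X : Set (Σ i, G ⧸ H i) := {x | ∃ k ∈ K, x.2 = ((k : G) : G ⧸ K')}
  let Y : Set (Σ j, G ⧸ L j) := {y | ∃ k ∈ K, y.2 = ((k : G) : G ⧸ L y.1)}
  let f : (Σ i, G ⧸ H i) → (Σ j, G ⧸ L j) := fun x =>
    ⟨x.1, ((Quotient.out (s := QuotientGroup.leftRel K') x.2 * (g x.1.1 x.1.2.1)⁻¹ : G) : G ⧸ L x.1)⟩
  have hf : ∀ (T : I) (a : G), f ⟨T, ((a : G) : G ⧸ K')⟩ =
      ⟨T, ((a * (g T.1 T.2.1)⁻¹ : G) : G ⧸ L T)⟩ := by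
    intro T a
    obtain ⟨h, hh, hout⟩ := CNT_out (K' := K') a
    show (⟨T, _⟩ : Σ j, G ⧸ L j) = _
    have h3 : ((Quotient.out (s := QuotientGroup.leftRel K') ((a : G) : G ⧸ K') *
        (g T.1 T.2.1)⁻¹ : G) : G ⧸ L T) = ((a * (g T.1 T.2.1)⁻¹ : G) : G ⧸ L T) := by
      rw [hout]
      exact CNT_key (hgT T.1 T.2.1) hh a
    exact congrArg (Sigma.mk T) h3
  have hXK : ∀ k ∈ K, ∀ x ∈ X, k • x ∈ X := by
    rintro k hk ⟨T, z⟩ ⟨a, ha, rfl : z = _⟩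
    exact ⟨k * a, K.mul_mem hk ha, rfl⟩
  have hYK : ∀ k ∈ K, ∀ y ∈ Y, k • y ∈ Y := by
    rintro k hk ⟨T, z⟩ ⟨a, ha, hz⟩
    have hz' : z = ((a : G) : G ⧸ L T) := hz
    subst hz'
    exact ⟨k * a, K.mul_mem hk ha, rfl⟩
  have hf1 : ∀ k ∈ K, ∀ x ∈ X, f (k • x) = k • f x := by
    rintro k hk ⟨T, z⟩ ⟨a, ha, rfl : z = _⟩
    have h1 : k • (⟨T, ((a : G) : G ⧸ K')⟩ : Σ i, G ⧸ H i) = ⟨T, ((k * a : G) : G ⧸ K')⟩ := rfl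
    rw [h1, hf, hf]
    show (⟨T, _⟩ : Σ j, G ⧸ L j) = ⟨T, ((k * (a * (g T.1 T.2.1)⁻¹) : G) : G ⧸ L T)⟩
    rw [mul_assoc]
  have hf2 : ∀ x ∈ X, f x ∈ Y := by
    rintro ⟨T, z⟩ ⟨a, ha, rfl : z = _⟩
    rw [hf]
    exact ⟨a * (g T.1 T.2.1)⁻¹, K.mul_mem ha (K.inv_mem (hgK T.1 T.2.1)), rfl⟩
  have hf3 : ∀ y ∈ Y, ∃ x ∈ X, f x = y := by
    rintro ⟨T, z⟩ ⟨a, ha, hz⟩
    have hz' : z = ((a : G) : G ⧸ L T) := hz
    subst hz'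
    refine ⟨⟨T, ((a * g T.1 T.2.1 : G) : G ⧸ K')⟩,
      ⟨a * g T.1 T.2.1, K.mul_mem ha (hgK T.1 T.2.1), rfl⟩, ?_⟩
    rw [hf, mul_inv_cancel_right]
  obtain ⟨K1, hK1S, hK1K, j, hjX, hjinj, hjeq⟩ := hP K hK I I H L (fun _ => hK'S)
    (fun T => T.2.1) X Y hXK hYK f hf1 hf2 hf3
    ⟨⟨⟨K, hK, le_rfl⟩, ((1 : G) : G ⧸ K)⟩, 1, K.one_mem, rfl⟩
  · refine ⟨K1, hK1S, hK1K, fun T => (j ⟨⟨T.1, T.2.1, T.2.2.trans hK1K⟩, ((1 : G) : G ⧸ T.1)⟩).2,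
      ?_⟩
    intro T
    let T' : I := ⟨T.1, T.2.1, T.2.2.trans hK1K⟩
    let y : Σ j, G ⧸ L j := ⟨T', ((1 : G) : G ⧸ T.1)⟩
    have hy : y ∈ Y := ⟨1, K.one_mem, rfl⟩
    have hgy : ∀ k : G, k • y = y ↔ k ∈ T.1 := by
      intro k
      constructor
      · intro h
        have h1 : ((k * 1 : G) : G ⧸ T.1) = ((1 : G) : G ⧸ T.1) := by
          have h2 : (⟨T', ((k * 1 : G) : G ⧸ T.1)⟩ : Σ j, G ⧸ L j) = ⟨T', ((1 : G) : G ⧸ T.1)⟩ := h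
          exact eq_of_heq (Sigma.mk.inj h2).2
        have h3 := QuotientGroup.eq.1 h1.symm
        simpa using h3
      · intro h
        have h1 : ((k * 1 : G) : G ⧸ T.1) = ((1 : G) : G ⧸ T.1) := by
          apply CNT_eq
          simpa using h
        exact congrArg (Sigma.mk T') h1
    have hjz : ∀ k : G, k • j y = j y ↔ k • (j y).2 = (j y).2 := by
      intro k
      generalize j y = w
      obtain ⟨i, z⟩ := w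
      constructor
      · intro h
        have h2 : (⟨i, k • z⟩ : Σ i, G ⧸ H i) = ⟨i, z⟩ := h
        exact eq_of_heq (Sigma.mk.inj h2).2
      · intro h
        exact congrArg (Sigma.mk i) h
    apply le_antisymm
    · intro k hk
      refine ⟨T.2.2 hk, ?_⟩
      show k • (j y).2 = (j y).2
      rw [← hjz, ← hjeq k (T.2.2 hk) y hy, (hgy k).2 hk]
    · rintro k ⟨hk1, hk2⟩
      have h1 : k • (j y).2 = (j y).2 := hk2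
      rw [← hjz, ← hjeq k hk1 y hy] at h1
      exact (hgy k).1 (hjinj (hYK k (hK1K hk1) y hy) hy h1)

end Vale.Agent.P323
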