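import Vale.Agent.P323.NoZ

/-!
P323, module CRIT: the general criterion with a base of the filter.
-/

namespace Vale.Agent.P323

universe u

variable {G : Type u} [Group G]

theorem CRIT_normalizes {t : G} {N : Subgroup G} (h : cj t N = N) {x : G} (hx : x ∈ N) :
    t * x * t⁻¹ ∈ N := by
  rw [← h, mem_cj]
  have e : t⁻¹ * (t * x * t⁻¹) * t = x := by group
  rwa [e]

theorem CRIT_normalizes' {t : G} {N : Subgroup G} (h : cj t N = N) {x : G} (hx : x ∈ N) :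
    t⁻¹ * x * t ∈ N := by
  rw [← h, mem_cj] at hx
  exact hx

theorem CRIT_conjn {t : G} {N : Subgroup G} (h : cj t N = N) (n : ℕ) {x : G} (hx : x ∈ N) :
    t ^ n * x * (t ^ n)⁻¹ ∈ N ∧ (t ^ n)⁻¹ * x * t ^ n ∈ N := by
  induction n with
  | zero => simpa using hx
  | succ n ih =>
    constructor
    · have h1 := CRIT_normalizes h ih.1
      have e : t * (t ^ n * x * (t ^ n)⁻¹) * t⁻¹ = t ^ (n + 1) * x * (t ^ (n + 1))⁻¹ := by
        rw [pow_succ']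
        group
      rwa [e] at h1
    · have h1 := CRIT_normalizes' h ih.2
      have e : t⁻¹ * ((t ^ n)⁻¹ * x * t ^ n) * t = (t ^ (n + 1))⁻¹ * x * t ^ (n + 1) := by
        rw [pow_succ]
        group
      rwa [e] at h1

theorem CRIT_conjz {t : G} {N : Subgroup G} (h : cj t N = N) (k : ℤ) {x : G} (hx : x ∈ N) :
    t ^ k * x * (t ^ k)⁻¹ ∈ N := by
  obtain ⟨n, rfl | rfl⟩ := k.eq_nat_or_neg
  · have := (CRIT_conjn h n hx).1
    rwa [zpow_natCast]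
  · have := (CRIT_conjn h n hx).2
    rw [zpow_neg, zpow_natCast, inv_inv]
    exact this

/-- The elements of `N ⊔ ⟨t ^ k⟩` when `t` normalizes `N`. -/
theorem CRIT_mem_sup {t : G} {N : Subgroup G} (h : cj t N = N) (k : ℕ) {x : G} :
    x ∈ N ⊔ Subgroup.zpowers (t ^ k) ↔ ∃ j : ℤ, x * (t ^ ((k : ℤ) * j))⁻¹ ∈ N := by
  constructor
  · intro hx
    let D : Subgroup G :=
      { carrier := {x | ∃ j : ℤ, x * (t ^ ((k : ℤ) * j))⁻¹ ∈ N}
        mul_mem' := by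
          rintro x y ⟨i, hi⟩ ⟨j, hj⟩
          refine ⟨i + j, ?_⟩
          have h1 := N.mul_mem hi (CRIT_conjz h ((k : ℤ) * i) hj)
          have e : x * (t ^ ((k : ℤ) * i))⁻¹ * (t ^ ((k : ℤ) * i) * (y * (t ^ ((k : ℤ) * j))⁻¹) *
              (t ^ ((k : ℤ) * i))⁻¹) = x * y * (t ^ ((k : ℤ) * (i + j)))⁻¹ := by
            rw [mul_add, add_comm, zpow_add]
            group
          rwa [e] at h1
        one_mem' := ⟨0, by simp [N.one_mem]⟩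
        inv_mem' := by
          rintro x ⟨i, hi⟩
          refine ⟨-i, ?_⟩
          have h1 := CRIT_conjz h (-((k : ℤ) * i)) (N.inv_mem hi)
          have e : t ^ (-((k : ℤ) * i)) * (x * (t ^ ((k : ℤ) * i))⁻¹)⁻¹ *
              (t ^ (-((k : ℤ) * i)))⁻¹ = x⁻¹ * (t ^ ((k : ℤ) * (-i)))⁻¹ := by
            rw [mul_neg, zpow_neg]
            group
          rwa [e] at h1 }
    have hD : N ⊔ Subgroup.zpowers (t ^ k) ≤ D := by
      refine sup_le (fun x hx => ⟨0, by simpa using hx⟩) ?_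
      rw [Subgroup.zpowers_le]
      exact ⟨1, by simp [N.one_mem]⟩
    exact hD hx
  · rintro ⟨j, hj⟩
    have h1 : x = x * (t ^ ((k : ℤ) * j))⁻¹ * t ^ ((k : ℤ) * j) := by group
    rw [h1]
    refine (N ⊔ Subgroup.zpowers (t ^ k)).mul_mem (le_sup_left (a := N) hj) ?_
    refine le_sup_right (a := N) ?_
    rw [Subgroup.mem_zpowers_iff]
    exact ⟨j, by rw [zpow_mul, zpow_natCast]⟩

theorem CRIT_zpow {t : G} {N : Subgroup G} (hn : ∀ n : ℕ, 0 < n → t ^ n ∉ N) {j : ℤ}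
    (hj : t ^ j ∈ N) : j = 0 := by
  obtain ⟨n, hn' | hn'⟩ := j.eq_nat_or_neg
  · rcases Nat.eq_zero_or_pos n with h0 | h0
    · rw [hn', h0]; rfl
    · exfalso
      apply hn n h0
      rw [hn', zpow_natCast] at hj
      exact hj
  · rcases Nat.eq_zero_or_pos n with h0 | h0
    · rw [hn', h0]; rfl
    · exfalso
      apply hn n h0
      have h1 := N.inv_mem hj
      rw [hn', zpow_neg, inv_inv, zpow_natCast] at h1
      exact h1

theorem CRIT_not_mem {t : G} {N : Subgroup G} (h : cj t N = N)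
    (hn : ∀ n : ℕ, 0 < n → t ^ n ∉ N) {k : ℕ} (hk : 2 ≤ k) :
    t ∉ N ⊔ Subgroup.zpowers (t ^ k) := by
  rw [CRIT_mem_sup h]
  rintro ⟨j, hj⟩
  have e : t * (t ^ ((k : ℤ) * j))⁻¹ = t ^ (1 - (k : ℤ) * j) := by
    rw [sub_eq_add_neg, zpow_add, zpow_neg, zpow_one]
  rw [e] at hj
  have h1 := CRIT_zpow hn hj
  have h2 : (k : ℤ) ∣ 1 := ⟨j, by omega⟩
  have h3 := Int.le_of_dvd one_pos h2
  omega

/-- The general criterion. -/
theorem exists_least_of_base {S : Set (Subgroup G)} (hS : IsNF S) (hP : PPG S)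
    (B : Set (Subgroup G)) (hBS : B ⊆ S) (hBcof : ∀ H ∈ S, ∃ V ∈ B, V ≤ H)
    (hBconj : ∀ V ∈ B, ∀ g : G, cj g V ∈ B)
    (hcrit : ∀ V ∈ B, ∀ V' ∈ B, ∀ t : G, cj t (V ⊓ V') = V ⊓ V' →
      (∀ n : ℕ, 0 < n → t ^ n ∉ V ⊓ V') →
      ∃ k : ℕ, 0 < k ∧ ∀ U ∈ B, ∀ U' ∈ B, (V ⊓ V') ⊔ Subgroup.zpowers (t ^ k) ≠ U ⊓ U') :
    ∃ N ∈ S, ∀ H ∈ S, N ≤ H := by
  by_contra hno
  push Not at hno
  obtain ⟨W1, hW1⟩ := exists_star hS hP hS.top_mem
  obtain ⟨W, hWB, hWW1⟩ := hBcof W1 hW1.1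
  have hWS : W ∈ S := hBS hWB
  have hWu : ∀ H ∈ S, ∃ g : G, cj g W ≤ H := by
    intro H hH
    obtain ⟨g, -, hg⟩ := hW1.2.2 H hH
    refine ⟨g, fun x hx => hg ?_⟩
    rw [mem_cj] at hx ⊢
    exact hWW1 hx
  have hsmall : ∀ H ∈ S, H ≤ W → ∃ U ∈ B, ∃ U' ∈ B, H = U ⊓ U' := by
    intro H hH hHW
    obtain ⟨U, hUB, hUH⟩ := hBcof _ hH
    obtain ⟨a, ha⟩ := NOZ_mem hS hP hWu (hBS hUB) hH hUH hHW
    exact ⟨W, hWB, _, hBconj _ hUB a, ha⟩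
  obtain ⟨W2, hW2⟩ := exists_star hS hP hWS
  obtain ⟨V, hVS, hV⟩ := hno W2 hW2.1
  obtain ⟨w, hw, hwV⟩ := SetLike.not_le_iff_exists.1 hV
  obtain ⟨s, hsW, hs⟩ := hW2.2.2 (V ⊓ W2) (hS.inf_mem hVS hW2.1)
  have hs' : ∀ x ∈ W2, s * x * s⁻¹ ∈ V ⊓ W2 := by
    intro x hx
    apply hs
    rw [mem_cj]
    have e : s⁻¹ * (s * x * s⁻¹) * s = x := by group
    rwa [e]
  have hs1 : ∀ x ∈ W2, s * x * s⁻¹ ∈ W2 := fun x hx => (hs' x hx).2
  have hs2 : ∀ x ∈ W2, s * x * s⁻¹ ∈ V := fun x hx => (hs' x hx).1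
  have hinj : ∀ k : ℤ, s ^ k ∈ NOZ_N s W2 hs1 → k = 0 := fun k hk =>
    NOZ_inj s W2 hs1 hs2 hw hwV hk
  have hNS : NOZ_N s W2 hs1 ∈ S := by
    refine hS.mono hW2.1 fun x hx => ⟨0, ?_⟩
    simpa using hx
  have hNW : NOZ_N s W2 hs1 ≤ W := by
    rintro x ⟨n, hn⟩
    have h1 := hW2.2.1 hn
    have h2 : (s ^ n)⁻¹ * (s ^ n * x * (s ^ n)⁻¹) * s ^ n ∈ W :=
      W.mul_mem (W.mul_mem (W.inv_mem (W.pow_mem hsW n)) h1) (W.pow_mem hsW n)
    have e : (s ^ n)⁻¹ * (s ^ n * x * (s ^ n)⁻¹) * s ^ n = x := by group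
    rwa [e] at h2
  have hcj : cj s (NOZ_N s W2 hs1) = NOZ_N s W2 hs1 := by
    ext x
    rw [mem_cj]
    constructor
    · intro hx
      have h1 := NOZ_conj1 s W2 hs1 hx
      have e : s * (s⁻¹ * x * s) * s⁻¹ = x := by group
      rwa [e] at h1
    · intro hx
      exact NOZ_conj2 s W2 hs1 hx
  have hnp : ∀ n : ℕ, 0 < n → s ^ n ∉ NOZ_N s W2 hs1 := fun n hn hsn => by
    have h1 := hinj (n : ℤ) (by rwa [zpow_natCast])
    omega
  obtain ⟨U0, hU0, U0', hU0', hN0⟩ := hsmall _ hNS hNW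
  rw [hN0] at hcj hnp
  obtain ⟨k, -, hk⟩ := hcrit U0 hU0 U0' hU0' s hcj hnp
  rw [← hN0] at hk
  have hHS : NOZ_N s W2 hs1 ⊔ Subgroup.zpowers (s ^ k) ∈ S := hS.mono hNS le_sup_left
  have hHW : NOZ_N s W2 hs1 ⊔ Subgroup.zpowers (s ^ k) ≤ W :=
    sup_le hNW (by rw [Subgroup.zpowers_le]; exact W.pow_mem hsW k)
  obtain ⟨U, hU, U', hU', hUU⟩ := hsmall _ hHS hHW
  exact hk U hU U' hU' hUU

end Vale.Agent.P323
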