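import Mathlib

/-!
# P323: permutation models of ZFA

Definitions: the universe of sets with atoms over a type `A` of atoms, the action of a
group `G` acting on the atoms, normal filters of subgroups, (hereditarily) symmetric sets,
and the statements of PP and AC in the permutation model.
-/

namespace Vale.Agent.P323

universe u

/-- Names for sets with atoms from `A` (indexed by small types). -/
inductive Pre (A : Type u) : Type (u + 1)
  | atom (a : A) : Pre A
  | set (ι : Type u) (f : ι → Pre A) : Pre A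

/-- Extensional equality of names: atoms are equal only to themselves; two sets are
equal if they have the same elements. -/
def Pre.Eqv {A : Type u} : Pre A → Pre A → Prop
  | .atom a, .atom b => a = b
  | .atom _, .set _ _ => False
  | .set _ _, .atom _ => False
  | .set _ f, .set _ g => (∀ i, ∃ j, Pre.Eqv (f i) (g j)) ∧ (∀ j, ∃ i, Pre.Eqv (f i) (g j))

theorem Pre.Eqv.refl {A : Type u} : ∀ x : Pre A, Pre.Eqv x x
  | .atom _ => rfl
  | .set _ f => ⟨fun i => ⟨i, Pre.Eqv.refl (f i)⟩, fun i => ⟨i, Pre.Eqv.refl (f i)⟩⟩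

theorem Pre.Eqv.symm {A : Type u} : ∀ {x y : Pre A}, Pre.Eqv x y → Pre.Eqv y x
  | .atom _, .atom _, h => Eq.symm h
  | .set _ _, .set _ _, h =>
    ⟨fun j => (h.2 j).imp fun _ hi => Pre.Eqv.symm hi,
      fun i => (h.1 i).imp fun _ hj => Pre.Eqv.symm hj⟩

theorem Pre.Eqv.trans {A : Type u} :
    ∀ {x y z : Pre A}, Pre.Eqv x y → Pre.Eqv y z → Pre.Eqv x z
  | .atom _, .atom _, .atom _, h, h' => Eq.trans h h'
  | .set _ _, .set _ _, .set _ _, h, h' =>
    ⟨fun i => let ⟨j, hj⟩ := h.1 i; (h'.1 j).imp fun _ hk => Pre.Eqv.trans hj hk,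
      fun k => let ⟨j, hj⟩ := h'.2 k; (h.2 j).imp fun _ hi => Pre.Eqv.trans hi hj⟩

instance Pre.setoid (A : Type u) : Setoid (Pre A) :=
  ⟨Pre.Eqv, Pre.Eqv.refl, Pre.Eqv.symm, Pre.Eqv.trans⟩

/-- The universe of sets with atoms from `A` (the universe of ZFA). -/
def V (A : Type u) : Type (u + 1) := Quotient (Pre.setoid A)

/-- The atoms of the universe. -/
def V.atom {A : Type u} (a : A) : V A := Quotient.mk _ (Pre.atom a)

/-- Membership of names. -/
def Pre.Mem {A : Type u} (x : Pre A) : Pre A → Prop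
  | .atom _ => False
  | .set _ f => ∃ i, Pre.Eqv x (f i)

theorem Pre.mem_congr {A : Type u} {x x' y y' : Pre A} (hx : Pre.Eqv x x')
    (hy : Pre.Eqv y y') : Pre.Mem x y ↔ Pre.Mem x' y' := by
  have key : ∀ {x x' y y' : Pre A}, Pre.Eqv x x' → Pre.Eqv y y' → Pre.Mem x y →
      Pre.Mem x' y' := by
    intro x x' y y' hx hy h
    cases y with
    | atom a => exact absurd h id
    | set ι f =>
      cases y' with
      | atom a => exact absurd hy id
      | set κ g =>
        obtain ⟨i, hi⟩ := h
        obtain ⟨j, hj⟩ := hy.1 i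
        exact ⟨j, (hx.symm.trans hi).trans hj⟩
  exact ⟨key hx hy, key hx.symm hy.symm⟩

/-- The membership relation of the universe. -/
def V.Mem {A : Type u} (y x : V A) : Prop :=
  Quotient.liftOn₂ x y Pre.Mem fun _ _ _ _ hx hy => propext (Pre.mem_congr hx hy)

instance {A : Type u} : Membership (V A) (V A) := ⟨V.Mem⟩

/-- The set whose elements are the values of a small family. -/
noncomputable def V.range {A : Type u} {ι : Type u} (f : ι → V A) : V A :=
  Quotient.mk _ (Pre.set ι fun i => (f i).out)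

theorem V.mem_range {A : Type u} {ι : Type u} (f : ι → V A) (x : V A) :
    x ∈ V.range f ↔ ∃ i, f i = x := by
  induction x using Quotient.inductionOn with
  | _ x =>
    show (∃ i, Pre.Eqv x (f i).out) ↔ _
    refine exists_congr fun i => ?_
    constructor
    · intro h
      have h2 : (Quotient.mk (Pre.setoid A) x) = Quotient.mk (Pre.setoid A) (f i).out :=
        Quotient.sound h
      exact (h2.trans (Quotient.out_eq (f i))).symm
    · intro h
      have h2 : (Quotient.mk (Pre.setoid A) x) = Quotient.mk (Pre.setoid A) (f i).out :=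
        h.symm.trans (Quotient.out_eq (f i)).symm
      exact Quotient.exact h2

/-- `x` is an atom. -/
def V.IsAtom {A : Type u} (x : V A) : Prop := ∃ a : A, x = V.atom a

/-- The unordered pair `{x, y}`. -/
noncomputable def V.upair {A : Type u} (x y : V A) : V A :=
  V.range (fun b : ULift.{u} Bool => if b.down then x else y)

/-- The Kuratowski pair `(x, y) = {{x}, {x, y}}`. -/
noncomputable def V.pair {A : Type u} (x y : V A) : V A :=
  V.upair (V.upair x x) (V.upair x y)

section Action

variable {A G : Type u} [Group G] [MulAction G A]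

/-- The action of the group on names, extending its action on the atoms. -/
def Pre.act (g : G) : Pre A → Pre A
  | .atom a => .atom (g • a)
  | .set ι f => .set ι fun i => Pre.act g (f i)

theorem Pre.act_congr (g : G) : ∀ {x y : Pre A}, Pre.Eqv x y →
    Pre.Eqv (Pre.act g x) (Pre.act g y)
  | .atom _, .atom _, h => congrArg (g • ·) h
  | .set _ _, .set _ _, h =>
    ⟨fun i => (h.1 i).imp fun _ hj => Pre.act_congr g hj,
      fun j => (h.2 j).imp fun _ hi => Pre.act_congr g hi⟩

theorem Pre.act_one : ∀ x : Pre A, Pre.act (1 : G) x = x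
  | .atom a => congrArg Pre.atom (one_smul G a)
  | .set ι f => congrArg (Pre.set ι) (funext fun i => Pre.act_one (f i))

theorem Pre.act_mul (g h : G) : ∀ x : Pre A, Pre.act (g * h) x = Pre.act g (Pre.act h x)
  | .atom a => congrArg Pre.atom (mul_smul g h a)
  | .set ι f => congrArg (Pre.set ι) (funext fun i => Pre.act_mul g h (f i))

/-- The group acts on the universe: `g • a` for an atom `a` is the given action, and
`g • x = {g • y : y ∈ x}` for a set `x`. -/
instance : MulAction G (V A) where
  smul g x := Quotient.map (Pre.act g) (fun _ _ h => Pre.act_congr g h) x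
  one_smul x := by
    induction x using Quotient.inductionOn with
    | _ x => exact congrArg (Quotient.mk _) (Pre.act_one x)
  mul_smul g h x := by
    induction x using Quotient.inductionOn with
    | _ x => exact congrArg (Quotient.mk _) (Pre.act_mul g h x)

end Action

/-- A normal filter of subgroups of `G`: a nonempty family of subgroups that is upward
closed, closed under intersections and under conjugation. -/
structure NormalFilter (G : Type u) [Group G] where
  /-- the subgroups in the filter -/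
  sets : Set (Subgroup G)
  top_mem : ⊤ ∈ sets
  mono : ∀ {H K : Subgroup G}, H ∈ sets → H ≤ K → K ∈ sets
  inf_mem : ∀ {H K : Subgroup G}, H ∈ sets → K ∈ sets → H ⊓ K ∈ sets
  conj_mem : ∀ {H : Subgroup G} (g : G), H ∈ sets →
    H.map (MulAut.conj g).toMonoidHom ∈ sets

section Model

variable {A G : Type u} [Group G] [MulAction G A] (F : NormalFilter G)

/-- The hereditarily symmetric elements of the universe: `x` is hereditarily symmetric if
its stabilizer `{g | g • x = x}` belongs to the filter and all elements of `x` are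
hereditarily symmetric. These are the elements of the permutation model. -/
inductive HS : V A → Prop
  | intro (x : V A) (sym : MulAction.stabilizer G x ∈ F.sets)
      (elts : ∀ y ∈ x, HS y) : HS x

/-- `f` is (the graph of) a function from `X` to `Y`. -/
def IsFun (f X Y : V A) : Prop :=
  ¬ f.IsAtom ∧ (∀ z ∈ f, ∃ x ∈ X, ∃ y ∈ Y, z = V.pair x y) ∧
    ∀ x ∈ X, ∃! y, V.pair x y ∈ f

/-- `f` is a surjection from `X` onto `Y`. -/
def IsSurj (f X Y : V A) : Prop :=
  IsFun f X Y ∧ ∀ y ∈ Y, ∃ x ∈ X, V.pair x y ∈ f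

/-- `f` is an injection from `X` into `Y`. -/
def IsInj (f X Y : V A) : Prop :=
  IsFun f X Y ∧ ∀ x x' y, V.pair x y ∈ f → V.pair x' y ∈ f → x = x'

/-- The Partition Principle holds in the permutation model given by `G`, `F` and the
atoms `A`. -/
def PPModel (A : Type u) [MulAction G A] : Prop :=
  ∀ X Y f : V A, HS F X → HS F Y → HS F f → IsSurj f X Y →
    ∃ j : V A, HS F j ∧ IsInj j Y X

/-- The Axiom of Choice holds in the permutation model: every set `X` of nonempty sets
has a choice function. -/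
def ACModel (A : Type u) [MulAction G A] : Prop :=
  ∀ X : V A, HS F X → (∀ x ∈ X, ∃ y, y ∈ x) →
    ∃ c : V A, HS F c ∧ (∀ z ∈ c, ∃ x ∈ X, ∃ y ∈ x, z = V.pair x y) ∧
      ∀ x ∈ X, ∃! y, V.pair x y ∈ c

/-- The family of all stabilizers of elements of the permutation model. -/
def Stabs (A : Type u) [MulAction G A] : Set (Subgroup G) :=
  {H | ∃ x : V A, HS F x ∧ MulAction.stabilizer G x = H}

end Model

section GroupLevel

variable {G : Type u} [Group G]

/-- The conjugate `g H g⁻¹`. -/
def cj (g : G) (H : Subgroup G) : Subgroup G := H.map (MulAut.conj g).toMonoidHom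

theorem mem_cj {g x : G} {H : Subgroup G} : x ∈ cj g H ↔ g⁻¹ * x * g ∈ H := by
  unfold cj
  rw [Subgroup.mem_map]
  constructor
  · rintro ⟨y, hy, rfl⟩
    simpa [mul_assoc] using hy
  · intro h
    exact ⟨g⁻¹ * x * g, h, by simp [mul_assoc]⟩

/-- A family of subgroups which is a normal filter. -/
structure IsNF (S : Set (Subgroup G)) : Prop where
  top_mem : ⊤ ∈ S
  mono : ∀ {H K : Subgroup G}, H ∈ S → H ≤ K → K ∈ S
  inf_mem : ∀ {H K : Subgroup G}, H ∈ S → K ∈ S → H ⊓ K ∈ S
  conj_mem : ∀ {H : Subgroup G} (g : G), H ∈ S → cj g H ∈ S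

/-- `K'` is a star for `K`: it is a member of `S` below `K` having a `K`-conjugate in every
member of `S`. -/
def Star (S : Set (Subgroup G)) (K' K : Subgroup G) : Prop :=
  K' ∈ S ∧ K' ≤ K ∧ ∀ H ∈ S, ∃ g ∈ K, cj g K' ≤ H

/-- The group theoretic form of PP: for disjoint unions of coset spaces. -/
def PPG (S : Set (Subgroup G)) : Prop :=
  ∀ K ∈ S, ∀ (I J : Type u) (H : I → Subgroup G) (L : J → Subgroup G),
    (∀ i, H i ∈ S) → (∀ j, L j ∈ S) →
    ∀ (X : Set (Σ i, G ⧸ H i)) (Y : Set (Σ j, G ⧸ L j)),
    (∀ k ∈ K, ∀ x ∈ X, k • x ∈ X) → (∀ k ∈ K, ∀ y ∈ Y, k • y ∈ Y) →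
    ∀ f : (Σ i, G ⧸ H i) → (Σ j, G ⧸ L j),
    (∀ k ∈ K, ∀ x ∈ X, f (k • x) = k • f x) → (∀ x ∈ X, f x ∈ Y) →
    (∀ y ∈ Y, ∃ x ∈ X, f x = y) → Y.Nonempty →
    ∃ K1 ∈ S, K1 ≤ K ∧ ∃ j : (Σ j, G ⧸ L j) → (Σ i, G ⧸ H i),
      (∀ y ∈ Y, j y ∈ X) ∧ Set.InjOn j Y ∧ ∀ k ∈ K1, ∀ y ∈ Y, j (k • y) = k • j y

end GroupLevel

end Vale.Agent.P323
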