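import Vale.Agent.P323.Snf
import Vale.Agent.P323.Code

/-! P323, module EMB1. -/

namespace Vale.Agent.P323

universe u

variable {A G : Type u} [Group G] [MulAction G A]

/-- EMB1: embedding of a disjoint union of coset spaces in the model:
`e ⟨i, z⟩ = pair (c i) (z.out • y i)` with `c` from `exists_code` and `stab (y i) = H i`. -/
theorem exists_emb (F : NormalFilter G) (I : Type u) (H : I → Subgroup G)
    (hH : ∀ i, H i ∈ Stabs F A) :
    ∃ e : (Σ i, G ⧸ H i) → V A, Function.Injective e ∧
      (∀ (g : G) z, e (g • z) = g • e z) ∧ ∀ z, HS F (e z) := by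
  classical
  choose y hy hst using hH
  obtain ⟨c, hc, hcg, hcH⟩ := exists_code F A I
  have key : ∀ (i : I) (g : G), ((g : G ⧸ H i)).out • y i = g • y i := by
    intro i g
    obtain ⟨h, hh⟩ := QuotientGroup.mk_out_eq_mul (H i) g
    have h1 : (h : G) ∈ MulAction.stabilizer G (y i) := by
      rw [hst i]
      exact h.2
    rw [hh, mul_smul, MulAction.mem_stabilizer_iff.1 h1]
  refine ⟨fun z => V.pair (c z.1) (z.2.out • y z.1), ?_, ?_, ?_⟩
  · rintro ⟨i, a⟩ ⟨j, b⟩ h
    obtain ⟨h1, h2⟩ := pair_inj.1 h
    obtain rfl : i = j := hc h1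
    induction a using QuotientGroup.induction_on with
    | _ a =>
      induction b using QuotientGroup.induction_on with
      | _ b =>
        have h3 : a • y i = b • y i := by
          rw [← key i a, ← key i b]
          exact h2
        have h4 : (a : G ⧸ H i) = (b : G ⧸ H i) := by
          rw [QuotientGroup.eq, ← hst i, MulAction.mem_stabilizer_iff, mul_smul, ← h3,
            inv_smul_smul]
        rw [h4]
  · rintro g ⟨i, a⟩
    induction a using QuotientGroup.induction_on with
    | _ a =>
      show V.pair (c i) ((((g * a : G)) : G ⧸ H i).out • y i) =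
        g • V.pair (c i) ((a : G ⧸ H i).out • y i)
      rw [key, key, smul_pair, hcg, mul_smul]
  · rintro ⟨i, a⟩
    exact HS_pair F (hcH i) (HS_smul F _ (hy i))

end Vale.Agent.P323
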