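import Vale.Agent.P323.Emb1

/-! P323, module EMB2. -/

namespace Vale.Agent.P323

universe u

variable {A G : Type u} [Group G] [MulAction G A]

/-- EMB2 (from EMB1). Let `X' = range (fun x : X => e x)`, `Y' = range (fun y : Y => e' y)`,
`f' = range (fun x : X => pair (e x) (e' (f x)))` (all in the model by `HS_range`, since `K`
preserves them). PP gives `j'`; `K1 = stab j' ⊓ K`, and `j y` is the `x` with
`pair (e' y) (e x) ∈ j'`. -/
theorem ppg_of_pp (F : NormalFilter G) (h : PPModel F A) : PPG (Stabs F A) := by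
  classical
  intro K hK I J H L hH hL X Y hX hY f hf hfY hsurj hYne
  obtain ⟨e, he_inj, he_eq, he_HS⟩ := exists_emb F I H hH
  obtain ⟨e', he'_inj, he'_eq, he'_HS⟩ := exists_emb F J L hL
  have hKF := stabs_sub F hK
  have hXS : HS F (V.range (fun x : X => e x.1)) :=
    HS_range F _ (fun x => he_HS _) K hKF
      (fun k hk x => ⟨⟨k • x.1, hX k hk x.1 x.2⟩, (he_eq k x.1).symm⟩)
  have hYS : HS F (V.range (fun y : Y => e' y.1)) :=
    HS_range F _ (fun y => he'_HS _) K hKF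
      (fun k hk y => ⟨⟨k • y.1, hY k hk y.1 y.2⟩, (he'_eq k y.1).symm⟩)
  have hfS : HS F (V.range (fun x : X => V.pair (e x.1) (e' (f x.1)))) :=
    HS_range F _ (fun x => HS_pair F (he_HS _) (he'_HS _)) K hKF
      (fun k hk x => ⟨⟨k • x.1, hX k hk x.1 x.2⟩, by
        rw [smul_pair, he_eq, hf k hk x.1 x.2, he'_eq]⟩)
  have hsur : IsSurj (V.range (fun x : X => V.pair (e x.1) (e' (f x.1))))
      (V.range (fun x : X => e x.1)) (V.range (fun y : Y => e' y.1)) := by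
    refine ⟨⟨range_not_atom _, ?_, ?_⟩, ?_⟩
    · intro z hz
      rw [V.mem_range] at hz
      obtain ⟨x, rfl⟩ := hz
      exact ⟨e x.1, (V.mem_range _ _).2 ⟨x, rfl⟩, e' (f x.1),
        (V.mem_range _ _).2 ⟨⟨f x.1, hfY x.1 x.2⟩, rfl⟩, rfl⟩
    · intro x hx
      rw [V.mem_range] at hx
      obtain ⟨x0, rfl⟩ := hx
      refine ⟨e' (f x0.1), (V.mem_range _ _).2 ⟨x0, rfl⟩, ?_⟩
      intro y hy
      rw [V.mem_range] at hy
      obtain ⟨x1, h1⟩ := hy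
      obtain ⟨h2, h3⟩ := pair_inj.1 h1
      rw [← h3, he_inj h2]
    · intro y hy
      rw [V.mem_range] at hy
      obtain ⟨y0, rfl⟩ := hy
      obtain ⟨x0, hx0, hxy⟩ := hsurj y0.1 y0.2
      exact ⟨e x0, (V.mem_range _ _).2 ⟨⟨x0, hx0⟩, rfl⟩,
        (V.mem_range _ _).2 ⟨⟨x0, hx0⟩, by rw [hxy]⟩⟩
  obtain ⟨j', hj'S, ⟨hj'a, hj'1, hj'2⟩, hj'inj⟩ := h _ _ _ hXS hYS hfS hsur
  refine ⟨MulAction.stabilizer G j' ⊓ K, (stabs_isNF F).inf_mem ⟨j', hj'S, rfl⟩ hK,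
    inf_le_right, ?_⟩
  have hex : ∀ y : Σ j, G ⧸ L j, y ∈ Y → ∃ x ∈ X, V.pair (e' y) (e x) ∈ j' := by
    intro y hy
    obtain ⟨z, hz, -⟩ := hj'2 (e' y) ((V.mem_range _ _).2 ⟨⟨y, hy⟩, rfl⟩)
    obtain ⟨a, ha, b, hb, hab⟩ := hj'1 _ hz
    obtain ⟨h1, h2⟩ := pair_inj.1 hab
    rw [V.mem_range] at hb
    obtain ⟨x, hx⟩ := hb
    refine ⟨x.1, x.2, ?_⟩
    rw [hx, ← h2]
    exact hz
  choose g hgX hgj using hex
  obtain ⟨y0, hy0⟩ := hYne
  have huniq : ∀ (y : Σ j, G ⧸ L j) (hy : y ∈ Y) (x : Σ i, G ⧸ H i),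
      V.pair (e' y) (e x) ∈ j' → x = g y hy := by
    intro y hy x hx
    obtain ⟨z, -, hz⟩ := hj'2 (e' y) ((V.mem_range _ _).2 ⟨⟨y, hy⟩, rfl⟩)
    have h1 := hz _ hx
    have h2 := hz _ (hgj y hy)
    exact he_inj (h1.trans h2.symm)
  refine ⟨fun y => if hy : y ∈ Y then g y hy else g y0 hy0, ?_, ?_, ?_⟩
  · intro y hy
    simp only [hy, dif_pos]
    exact hgX y hy
  · intro y hy z hz hyz
    simp only [hy, hz, dif_pos] at hyz
    have h1 := hgj y hy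
    have h2 := hgj z hz
    rw [hyz] at h1
    exact he'_inj (hj'inj _ _ _ h1 h2)
  · rintro k ⟨hk1, hk2⟩ y hy
    have hky : k • y ∈ Y := hY k hk2 y hy
    simp only [hy, hky, dif_pos]
    symm
    apply huniq
    have h1 := (smul_mem_smul k j' (V.pair (e' y) (e (g y hy)))).2 (hgj y hy)
    have h2 : k • j' = j' := hk1
    rw [h2, smul_pair, ← he'_eq, ← he_eq] at h1
    exact h1

end Vale.Agent.P323
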