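import Vale.Agent.P323.St1

/-! P323, module ST2. -/

namespace Vale.Agent.P323

universe u

variable {G : Type u} [Group G]

private theorem st2_cj_mul (g h : G) (H : Subgroup G) : cj g (cj h H) = cj (g * h) H := by
  ext x
  simp only [mem_cj]
  have : h⁻¹ * (g⁻¹ * x * g) * h = (g * h)⁻¹ * x * (g * h) := by group
  rw [this]

private theorem st2_cj_mono {g : G} {H L : Subgroup G} (h : H ≤ L) : cj g H ≤ cj g L := by
  intro x hx
  rw [mem_cj] at hx ⊢
  exact h hx

private theorem st2_cj_one (H : Subgroup G) : cj 1 H = H := by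
  ext x
  simp [mem_cj]

private theorem st2_step {K K1 M L H : Subgroup G} {k g : G} (hk : k ∈ K) (hg : g ∈ K)
    (h1 : K1 ≤ cj k M) (h2 : cj g M ≤ H) (hL : L ≤ K1) : ∃ g' ∈ K, cj g' L ≤ H := by
  refine ⟨g * k⁻¹, K.mul_mem hg (K.inv_mem hk), ?_⟩
  refine (st2_cj_mono (hL.trans h1)).trans ?_
  rw [st2_cj_mul, inv_mul_cancel_right]
  exact h2

private theorem st2_aux {S : Set (Subgroup G)} (hS : IsNF S) (hP : PPG S) {K : Subgroup G}
    (hK : K ∈ S) (T : Type u) [LinearOrder T] [WellFoundedLT T] (e : T → Subgroup G)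
    (he : ∀ t, e t ∈ S) (hsurj : ∀ H ∈ S, ∃ t, e t = H) : ∃ K', Star S K' K := by
  have key : ∀ i : T, ∃ M : Subgroup G, M ∈ S ∧ ∀ i' : T, i' ≤ i → ∃ g ∈ K, cj g M ≤ e i' := by
    intro i
    induction i using WellFoundedLT.induction with
    | ind i ih =>
      choose M hM hM2 using ih
      obtain ⟨K1, hK1, h1⟩ := st1 hS hP hK {i' : T // i' < i} (fun j => M j.1 j.2)
        (fun j => hM j.1 j.2)
      refine ⟨K1 ⊓ e i, hS.inf_mem hK1 (he i), fun i' hi' => ?_⟩
      rcases hi'.eq_or_lt with rfl | hlt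
      · refine ⟨1, K.one_mem, ?_⟩
        rw [st2_cj_one]
        exact inf_le_right
      · obtain ⟨j', hj', k, hk, hk2⟩ := h1 ⟨i', hlt⟩
        obtain ⟨g, hg, hg2⟩ := hM2 j'.1 j'.2 i' hj'
        exact st2_step hk hg hk2 hg2 inf_le_left
  choose M hM hM2 using key
  obtain ⟨K1, hK1, h1⟩ := st1 hS hP hK T M hM
  refine ⟨K1 ⊓ K, hS.inf_mem hK1 hK, inf_le_right, fun H hH => ?_⟩
  obtain ⟨t, rfl⟩ := hsurj H hH
  obtain ⟨j', hj', k, hk, hk2⟩ := h1 t
  obtain ⟨g, hg, hg2⟩ := hM2 j' t hj'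
  exact st2_step hk hg hk2 hg2 inf_le_left

/-- ST2 (from ST1). Well-order the type `S`. By strong induction for every `i : S` there is
`K_i ∈ S` with `∀ i' ≤ i, ∃ g ∈ K, cj g K_i ≤ i'` (apply `st1` to `{i' // i' < i}` and the
chosen `K_i'`, then intersect with `i`). Then apply `st1` to all of `S` and intersect with
`K`. -/
theorem exists_star {S : Set (Subgroup G)} (hS : IsNF S) (hP : PPG S) {K : Subgroup G}
    (hK : K ∈ S) : ∃ K', Star S K' K := by
  obtain ⟨hlin, hwf⟩ := exists_wellFoundedLT S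
  exact @st2_aux G _ S hS hP K hK S hlin hwf Subtype.val (fun t => t.2)
    (fun H hH => ⟨⟨H, hH⟩, rfl⟩)

end Vale.Agent.P323
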