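import Vale.Agent.P323.Emb2
import Vale.Agent.P323.St2
import Vale.Agent.P323.Can1
import Vale.Agent.P323.Can2
import Vale.Agent.P323.Count
import Vale.Agent.P323.ACM

/-! P323, module FIN: assembly. -/

namespace Vale.Agent.P323

universe u

variable {A G : Type u} [Group G] [MulAction G A]

/-- The group theoretic core. -/
theorem exists_least {S : Set (Subgroup G)} (hS : IsNF S) (hP : PPG S)
    (hsmall : ∀ H ∈ S, ∀ K ∈ S,
      Cardinal.mk (MulAction.orbitRel.Quotient H (G ⧸ K)) < Cardinal.continuum) :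
    ∃ N ∈ S, ∀ H ∈ S, N ≤ H := by
  by_contra hno
  have hst : ∀ K ∈ S, ∃ K', Star S K' K := fun K hK => exists_star hS hP hK
  obtain ⟨K', hK'⟩ := hst ⊤ hS.top_mem
  obtain ⟨K1, hK1, -, c, hc⟩ := count_main hS hP hS.top_mem hK'
  obtain ⟨L, hL⟩ := hst K1 hK1
  have hrel : Rel S L K1 := ⟨hL.1, hK1, L, hL, le_rfl⟩
  obtain ⟨T, hTinj, hT⟩ := cantor_scheme (Rel S) (fun a b h => rel_lt hS hno h)
    (fun a b h => rel_dense hS hst h) hrel
  have hTS : ∀ x, T x ∈ S ∧ T x ≤ K1 := fun x => ⟨hS.mono hL.1 (hT x).1, (hT x).2⟩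
  let φ : (ℕ → Bool) → MulAction.orbitRel.Quotient L (G ⧸ K') :=
    fun x => Quotient.mk _ (c ⟨T x, hTS x⟩)
  have hφ : Function.Injective φ := by
    intro x y hxy
    have h1 : c ⟨T x, hTS x⟩ ∈ MulAction.orbit L (c ⟨T y, hTS y⟩) := Quotient.exact hxy
    obtain ⟨l, hl⟩ := h1
    have h2 : T y = K1 ⊓ MulAction.stabilizer G (c ⟨T y, hTS y⟩) := hc ⟨T y, hTS y⟩
    have h3 : (l : G) ∈ T y := (hT y).1 l.2
    rw [h2] at h3
    have h4 : (l : G) • c ⟨T y, hTS y⟩ = c ⟨T y, hTS y⟩ := h3.2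
    have h5 : c ⟨T x, hTS x⟩ = c ⟨T y, hTS y⟩ := by
      rw [← hl]; exact h4
    apply hTinj
    have h6 : T x = K1 ⊓ MulAction.stabilizer G (c ⟨T x, hTS x⟩) := hc ⟨T x, hTS x⟩
    rw [h6, h5, ← h2]
  have hcard := Cardinal.mk_le_of_injective (f := ULift.{u} (ℕ → Bool) |> fun _ =>
    (fun x : ULift.{u} (ℕ → Bool) => φ x.down)) (by
      intro x y h
      exact ULift.ext _ _ (hφ h))
  have h7 : Cardinal.mk (ULift.{u} (ℕ → Bool)) = Cardinal.continuum := by simp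
  rw [h7] at hcard
  exact absurd hcard (not_le.mpr (hsmall L hL.1 K' hK'.1))

/-- FIN -/
theorem main_thm (F : NormalFilter G)
    (hsmall : ∀ H ∈ F.sets, ∀ K ∈ F.sets,
      Cardinal.mk (MulAction.orbitRel.Quotient H (G ⧸ K)) < Cardinal.continuum)
    (hPP : PPModel F A) : ACModel F A := by
  obtain ⟨N, hN, hmin⟩ := exists_least (stabs_isNF (A := A) F) (ppg_of_pp F hPP)
    (fun H hH K hK => hsmall H (stabs_sub F hH) K (stabs_sub F hK))
  exact ac_of_least F N hN hmin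

end Vale.Agent.P323
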