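import Vale.Agent.P323.Defs

/-!
P323: the filter generated by the pointwise stabilizers of an invariant ideal of supports.
-/

namespace Vale.Agent.P323

universe u

/-- The filter of subgroups of the full symmetric group of the set `A` of atoms generated by the
pointwise stabilizers of the members of `I`. -/
def suppFilter {A : Type u} (I : Set (Set A)) (hne : ∃ E, E ∈ I)
    (hun : ∀ E ∈ I, ∀ E' ∈ I, E ∪ E' ∈ I)
    (hinv : ∀ E ∈ I, ∀ g : Equiv.Perm A, g '' E ∈ I) : NormalFilter (Equiv.Perm A) where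
  sets := {H | ∃ E ∈ I, ∀ g : Equiv.Perm A, (∀ a ∈ E, g a = a) → g ∈ H}
  top_mem := by
    obtain ⟨E, hE⟩ := hne
    exact ⟨E, hE, fun _ _ => Subgroup.mem_top _⟩
  mono := by
    rintro H K ⟨E, hE, h⟩ hHK
    exact ⟨E, hE, fun g hg => hHK (h g hg)⟩
  inf_mem := by
    rintro H K ⟨E, hE, h⟩ ⟨E', hE', h'⟩
    exact ⟨E ∪ E', hun E hE E' hE', fun g hg =>
      ⟨h g fun a ha => hg a (Or.inl ha), h' g fun a ha => hg a (Or.inr ha)⟩⟩
  conj_mem := by
    rintro H g ⟨E, hE, h⟩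
    refine ⟨g '' E, hinv E hE g, fun k hk => ?_⟩
    show k ∈ cj g H
    rw [mem_cj]
    apply h
    intro a ha
    rw [Equiv.Perm.mul_apply, Equiv.Perm.mul_apply, hk (g a) ⟨a, ha, rfl⟩]
    exact Equiv.Perm.inv_eq_iff_eq.2 rfl

end Vale.Agent.P323
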