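import Vale.Agent.P323.NoZ
import Vale.Agent.P323.Emb2
import Vale.Agent.P323.ACM
import Vale.Agent.P323.Code
import Vale.Agent.P323.SuppDefs

/-!
P323: permutation models whose filter has a base without infinite cyclic quotients, and all
models given by the full symmetric group and a normal ideal of supports.
-/

namespace Vale.Agent.P323

universe u

/-- every permutation is a product of two involutions with at least the same fixed points -/
theorem FR_invol {A : Type u} (σ : Equiv.Perm A) :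
    ∃ τ ρ : Equiv.Perm A, τ * τ = 1 ∧ ρ * ρ = 1 ∧ σ = ρ * τ ∧
      ∀ a, σ a = a → τ a = a ∧ ρ a = a := by
  classical
  obtain ⟨r, hr1, hr2⟩ : ∃ r : A → A, (∀ x, σ.SameCycle (r x) x) ∧
      ∀ x y, σ.SameCycle x y → r x = r y := by
    refine ⟨fun x => (Quotient.mk (Equiv.Perm.SameCycle.setoid σ) x).out, fun x => ?_,
      fun x y h => ?_⟩
    · exact Quotient.exact (Quotient.out_eq (Quotient.mk (Equiv.Perm.SameCycle.setoid σ) x))
    · have : Quotient.mk (Equiv.Perm.SameCycle.setoid σ) x =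
          Quotient.mk (Equiv.Perm.SameCycle.setoid σ) y := Quotient.sound h
      show (Quotient.mk (Equiv.Perm.SameCycle.setoid σ) x).out = _
      rw [this]
  choose κ hκ using hr1
  have key : ∀ (z : A) (m n : ℤ), (σ ^ m) z = (σ ^ n) z → (σ ^ (-m)) z = (σ ^ (-n)) z := by
    intro z m n h
    have h1 : (σ ^ (-m - n)) ((σ ^ m) z) = (σ ^ (-m - n)) ((σ ^ n) z) := by rw [h]
    rw [← Equiv.Perm.mul_apply, ← Equiv.Perm.mul_apply, ← zpow_add, ← zpow_add] at h1
    have e1 : -m - n + m = -n := by ring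
    have e2 : -m - n + n = -m := by ring
    rw [e1, e2] at h1
    exact h1.symm
  have hcyc : ∀ (x : A) (k : ℤ), r ((σ ^ k) (r x)) = r x := by
    intro x k
    have h1 : σ.SameCycle (r x) ((σ ^ k) (r x)) := ⟨k, rfl⟩
    have h2 : σ.SameCycle (r x) x := ⟨κ x, hκ x⟩
    exact (hr2 _ _ (h1.symm.trans h2))
  obtain ⟨t, ht⟩ : ∃ t : A → A, ∀ x, t x = (σ ^ (-κ x)) (r x) := ⟨_, fun _ => rfl⟩
  have htk : ∀ (x : A) (k : ℤ), t ((σ ^ k) (r x)) = (σ ^ (-k)) (r x) := by
    intro x k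
    rw [ht, hcyc]
    apply key
    have h1 := hκ ((σ ^ k) (r x))
    rwa [hcyc] at h1
  have htt : Function.Involutive t := by
    intro x
    rw [ht x, htk x, neg_neg, hκ]
  have hpp : Function.Involutive (fun x => σ (t x)) := by
    intro x
    show σ (t (σ (t x))) = x
    have e1 : σ (t x) = (σ ^ (1 - κ x)) (r x) := by
      rw [ht x, ← Equiv.Perm.mul_apply]
      congr 1
      rw [sub_eq_add_neg, zpow_add, zpow_one]
    rw [e1, htk x, ← Equiv.Perm.mul_apply]
    have e2 : σ * σ ^ (-(1 - κ x)) = σ ^ (κ x) := by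
      have : κ x = 1 + (-(1 - κ x)) := by ring
      conv_rhs => rw [this, zpow_add, zpow_one]
    rw [e2, hκ]
  refine ⟨htt.toPerm, hpp.toPerm, ?_, ?_, ?_, ?_⟩
  · ext x
    exact htt x
  · ext x
    exact hpp x
  · ext x
    show σ x = σ (t (t x))
    rw [htt x]
  · intro a ha
    have hz : ∀ k : ℤ, (σ ^ k) a = a := fun k => by
      have h1 : Function.IsFixedPt σ a := ha
      exact h1.perm_zpow k
    have hra : r a = a := by
      have h1 : σ.SameCycle (r a) a := ⟨κ a, hκ a⟩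
      obtain ⟨k, hk⟩ := h1.symm
      rw [hz k] at hk
      exact hk.symm
    have hta : t a = a := by rw [ht, hra, hz]
    refine ⟨hta, ?_⟩
    show σ (t a) = a
    rw [hta, ha]

/-- the pointwise stabilizer of a set of atoms in the full symmetric group -/
def fx {A : Type u} (E : Set A) : Subgroup (Equiv.Perm A) where
  carrier := {g | ∀ a ∈ E, g a = a}
  mul_mem' := by
    intro g h hg hh a ha
    rw [Equiv.Perm.mul_apply, hh a ha, hg a ha]
  one_mem' := fun _ _ => rfl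
  inv_mem' := by
    intro g hg a ha
    rw [Equiv.Perm.inv_eq_iff_eq]
    exact (hg a ha).symm

theorem FR_noZ {A : Type u} (E : Set A) (φ : fx E →* Multiplicative ℤ) :
    ¬ Function.Surjective φ := by
  intro hφ
  have htriv : ∀ x : fx E, x * x = 1 → φ x = 1 := by
    intro x hx
    have h1 : φ x * φ x = 1 := by rw [← map_mul, hx, map_one]
    have h2 : Multiplicative.toAdd (φ x) + Multiplicative.toAdd (φ x) = 0 := by
      rw [← toAdd_mul, h1]; rfl
    have h3 : Multiplicative.toAdd (φ x) = 0 := by omega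
    exact toAdd_eq_zero.1 h3
  obtain ⟨x, hx⟩ := hφ (Multiplicative.ofAdd 1)
  obtain ⟨τ, ρ, hτ, hρ, hσ, hfix⟩ := FR_invol (x : Equiv.Perm A)
  have hτm : τ ∈ fx E := fun a ha => (hfix a (x.2 a ha)).1
  have hρm : ρ ∈ fx E := fun a ha => (hfix a (x.2 a ha)).2
  have hx2 : x = ⟨ρ, hρm⟩ * ⟨τ, hτm⟩ := Subtype.ext hσ
  have h1 : φ ⟨ρ, hρm⟩ = 1 := htriv _ (Subtype.ext hρ)
  have h2 : φ ⟨τ, hτm⟩ = 1 := htriv _ (Subtype.ext hτ)
  rw [hx2, map_mul, h1, h2, one_mul] at hx
  have h3 := congrArg Multiplicative.toAdd hx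
  simp at h3

/-- General theorem. -/
theorem pp_ac_of_base {A G : Type u} [Group G] [MulAction G A] (F : NormalFilter G)
    (B : Set (Subgroup G)) (hBS : B ⊆ Stabs F A) (hBcof : ∀ H ∈ Stabs F A, ∃ V ∈ B, V ≤ H)
    (hBconj : ∀ V ∈ B, ∀ g : G, V.map (MulAut.conj g).toMonoidHom ∈ B)
    (hBinf : ∀ V ∈ B, ∀ W ∈ B, V ⊓ W ∈ B)
    (hZ : ∀ V ∈ B, ∀ φ : V →* Multiplicative ℤ, Function.Surjective φ →
      φ.ker.map V.subtype ∉ Stabs F A) (hPP : PPModel F A) : ACModel F A := by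
  obtain ⟨N, hN, hmin⟩ := exists_least_noZ (stabs_isNF (A := A) F) (ppg_of_pp F hPP) B hBS
    hBcof hBconj hBinf hZ
  exact ac_of_least F N hN hmin

section

variable {A : Type u} (I : Set (Set A)) (hne : ∃ E, E ∈ I)
    (hun : ∀ E ∈ I, ∀ E' ∈ I, E ∪ E' ∈ I)
    (hinv : ∀ E ∈ I, ∀ g : Equiv.Perm A, g '' E ∈ I)

theorem FR_atom_inj {a b : A} (h : V.atom a = V.atom b) : a = b := Quotient.exact h

theorem FR_atom_mem {a : A} {y : V A} (h : y ∈ V.atom a) : False := by
  induction y using Quotient.inductionOn with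
  | _ y => exact h

theorem FR_HS_atom (hsing : ∀ a, {a} ∈ I) (a : A) :
    HS (suppFilter I hne hun hinv) (V.atom a) := by
  refine HS.intro _ ⟨{a}, hsing a, fun g hg => ?_⟩ fun y hy => (FR_atom_mem hy).elim
  rw [MulAction.mem_stabilizer_iff]
  show V.atom (g a) = V.atom a
  rw [hg a rfl]

theorem FR_stab (hsing : ∀ a, {a} ∈ I) {E : Set A} (hE : E ∈ I) :
    fx E ∈ Stabs (suppFilter I hne hun hinv) A := by
  obtain ⟨c, hc1, hc2, hc3⟩ := exists_code (suppFilter I hne hun hinv) A E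
  have hfx : ∀ k ∈ fx E, ∀ i : E, k • V.pair (c i) (V.atom (i : A)) =
      V.pair (c i) (V.atom (i : A)) := by
    intro k hk i
    rw [smul_pair, hc2]
    show V.pair (c i) (V.atom (k i)) = _
    rw [hk i i.2]
  refine ⟨V.range (fun i : E => V.pair (c i) (V.atom (i : A))), ?_, le_antisymm ?_ ?_⟩
  · refine HS_range _ _ (fun i => HS_pair _ (hc3 i) (FR_HS_atom I hne hun hinv hsing i)) (fx E)
      ⟨E, hE, fun g hg => hg⟩ fun k hk i => ⟨i, hfx k hk i⟩
  · intro g hg a ha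
    rw [MulAction.mem_stabilizer_iff] at hg
    have h1 : V.pair (c ⟨a, ha⟩) (V.atom a) ∈
        V.range (fun i : E => V.pair (c i) (V.atom (i : A))) :=
      (V.mem_range _ _).2 ⟨⟨a, ha⟩, rfl⟩
    have h2 := (smul_mem_smul g _ _).2 h1
    rw [hg, smul_pair, hc2] at h2
    obtain ⟨b, hb⟩ := (V.mem_range _ _).1 h2
    obtain ⟨h3, h4⟩ := pair_inj.1 hb
    have h5 := hc1 h3
    rw [h5] at h4
    exact (FR_atom_inj (h4 : V.atom a = V.atom (g a))).symm
  · exact le_stab_range _ _ fun k hk i => ⟨i, hfx k hk i⟩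

/-- All permutation models given by the full symmetric group of the atoms and an invariant
ideal of supports. -/
theorem pp_ac_fraenkel (hsing : ∀ a, {a} ∈ I)
    (hPP : PPModel (suppFilter I hne hun hinv) A) : ACModel (suppFilter I hne hun hinv) A := by
  refine pp_ac_of_base _ {H | ∃ E ∈ I, H = fx E} ?_ ?_ ?_ ?_ ?_ hPP
  · rintro H ⟨E, hE, rfl⟩
    exact FR_stab I hne hun hinv hsing hE
  · intro H hH
    obtain ⟨E, hE, h⟩ := stabs_sub _ hH
    exact ⟨fx E, ⟨E, hE, rfl⟩, fun g hg => h g hg⟩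
  · rintro V ⟨E, hE, rfl⟩ g
    refine ⟨g '' E, hinv E hE g, ?_⟩
    show cj g (fx E) = fx (g '' E)
    ext x
    rw [mem_cj]
    constructor
    · rintro h _ ⟨a, ha, rfl⟩
      have h1 := h a ha
      rw [Equiv.Perm.mul_apply, Equiv.Perm.mul_apply, Equiv.Perm.inv_eq_iff_eq] at h1
      exact h1
    · intro h a ha
      rw [Equiv.Perm.mul_apply, Equiv.Perm.mul_apply, h (g a) ⟨a, ha, rfl⟩]
      exact Equiv.Perm.inv_eq_iff_eq.2 rfl
  · rintro V ⟨E, hE, rfl⟩ W ⟨E', hE', rfl⟩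
    refine ⟨E ∪ E', hun E hE E' hE', ?_⟩
    ext x
    constructor
    · rintro ⟨h1, h2⟩ a (ha | ha)
      · exact h1 a ha
      · exact h2 a ha
    · intro h
      exact ⟨fun a ha => h a (Or.inl ha), fun a ha => h a (Or.inr ha)⟩
  · rintro V ⟨E, hE, rfl⟩ φ hφ
    exact absurd hφ (FR_noZ E φ)

end

end Vale.Agent.P323
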