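import Vale.Agent.P323.St2

/-!
P323, module NOZ: a base of the filter whose members have no infinite cyclic quotient.
-/

namespace Vale.Agent.P323

universe u

variable {G : Type u} [Group G]

theorem NOZ_smul {K : Subgroup G} (k a : G) :
    k • ((a : G) : G ⧸ K) = ((a : G) : G ⧸ K) ↔ k ∈ cj a K := by
  rw [mem_cj]
  have h1 : k • ((a : G) : G ⧸ K) = ((k * a : G) : G ⧸ K) := rfl
  rw [h1, eq_comm, QuotientGroup.eq, mul_assoc]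

/-- Below a universal `W` every member of the filter is the intersection of `W` and a
conjugate of any given smaller member. -/
theorem NOZ_mem {S : Set (Subgroup G)} (hS : IsNF S) (hP : PPG S) {W : Subgroup G}
    (hW : ∀ H ∈ S, ∃ g : G, cj g W ≤ H) {V H : Subgroup G} (hV : V ∈ S) (hH : H ∈ S)
    (hVH : V ≤ H) (hHW : H ≤ W) : ∃ a : G, H = W ⊓ cj a V := by
  obtain ⟨K1, hK1, -, j, -, hj2, hj3⟩ := hP ⊤ hS.top_mem PUnit.{u + 1} PUnit.{u + 1}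
    (fun _ => V) (fun _ => H) (fun _ => hV) (fun _ => hH) Set.univ Set.univ
    (fun _ _ _ _ => Set.mem_univ _) (fun _ _ _ _ => Set.mem_univ _)
    (fun x => ⟨x.1, Subgroup.quotientMapOfLE hVH x.2⟩)
    (by
      rintro k - ⟨i, z⟩ -
      induction z using QuotientGroup.induction_on with
      | H z => rfl)
    (fun _ _ => Set.mem_univ _)
    (by
      rintro ⟨i, z⟩ -
      induction z using QuotientGroup.induction_on with
      | H z => exact ⟨⟨i, ((z : G) : G ⧸ V)⟩, Set.mem_univ _, rfl⟩)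
    ⟨⟨PUnit.unit, ((1 : G) : G ⧸ H)⟩, Set.mem_univ _⟩
  obtain ⟨g, hg⟩ := hW K1 hK1
  obtain ⟨y, hy⟩ : ∃ y : (Σ _ : PUnit.{u + 1}, G ⧸ H), y = ⟨PUnit.unit, ((g : G) : G ⧸ H)⟩ :=
    ⟨_, rfl⟩
  obtain ⟨a, ha⟩ : ∃ a : G, (j y).2 = ((a : G) : G ⧸ V) := by
    obtain ⟨a, ha⟩ := QuotientGroup.mk_surjective (j y).2
    exact ⟨a, ha.symm⟩
  have hjy : j y = ⟨PUnit.unit, ((a : G) : G ⧸ V)⟩ := by
    rw [← ha]
  have key : ∀ k ∈ K1, k ∈ cj g H ↔ k ∈ cj a V := by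
    intro k hk
    rw [← NOZ_smul, ← NOZ_smul]
    have e1 : k • y = y ↔ k • ((g : G) : G ⧸ H) = ((g : G) : G ⧸ H) := by
      rw [hy]
      constructor
      · intro h
        exact eq_of_heq (Sigma.mk.inj h).2
      · intro h
        show (⟨PUnit.unit, k • ((g : G) : G ⧸ H)⟩ : Σ _ : PUnit.{u + 1}, G ⧸ H) = _
        rw [h]
    have e2 : k • j y = j y ↔ k • ((a : G) : G ⧸ V) = ((a : G) : G ⧸ V) := by
      rw [hjy]
      constructor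
      · intro h
        exact eq_of_heq (Sigma.mk.inj h).2
      · intro h
        show (⟨PUnit.unit, k • ((a : G) : G ⧸ V)⟩ : Σ _ : PUnit.{u + 1}, G ⧸ V) = _
        rw [h]
    rw [← e1, ← e2, ← hj3 k hk y (Set.mem_univ _)]
    constructor
    · intro h
      rw [h]
    · intro h
      exact hj2 (Set.mem_univ _) (Set.mem_univ _) h
  refine ⟨g⁻¹ * a, ?_⟩
  ext h
  rw [Subgroup.mem_inf]
  have hc : ∀ h ∈ W, g * h * g⁻¹ ∈ K1 := fun h hh => hg (by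
    rw [mem_cj]
    have : g⁻¹ * (g * h * g⁻¹) * g = h := by group
    rwa [this])
  have e3 : g * h * g⁻¹ ∈ cj g H ↔ h ∈ H := by
    rw [mem_cj]
    have : g⁻¹ * (g * h * g⁻¹) * g = h := by group
    rw [this]
  have e4 : g * h * g⁻¹ ∈ cj a V ↔ h ∈ cj (g⁻¹ * a) V := by
    rw [mem_cj, mem_cj]
    have : a⁻¹ * (g * h * g⁻¹) * a = (g⁻¹ * a)⁻¹ * h * (g⁻¹ * a) := by group
    rw [this]
  constructor
  · intro hh
    have hw := hHW hh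
    exact ⟨hw, e4.1 ((key _ (hc h hw)).1 (e3.2 hh))⟩
  · rintro ⟨hw, hh⟩
    exact e3.1 ((key _ (hc h hw)).2 (e4.2 hh))

section Z

variable (s : G) (W2 : Subgroup G)

theorem NOZ_pow (hs : ∀ x ∈ W2, s * x * s⁻¹ ∈ W2) (n : ℕ) :
    ∀ x ∈ W2, s ^ n * x * (s ^ n)⁻¹ ∈ W2 := by
  induction n with
  | zero => intro x hx; simpa using hx
  | succ n ih =>
    intro x hx
    have h := hs _ (ih x hx)
    have e : s * (s ^ n * x * (s ^ n)⁻¹) * s⁻¹ = s ^ (n + 1) * x * (s ^ (n + 1))⁻¹ := by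
      rw [pow_succ']
      group
    rwa [e] at h

theorem NOZ_mono (hs : ∀ x ∈ W2, s * x * s⁻¹ ∈ W2) {n m : ℕ} (hnm : n ≤ m) {x : G}
    (hx : s ^ n * x * (s ^ n)⁻¹ ∈ W2) : s ^ m * x * (s ^ m)⁻¹ ∈ W2 := by
  obtain ⟨k, rfl⟩ := Nat.exists_eq_add_of_le hnm
  have h := NOZ_pow s W2 hs k _ hx
  have e : s ^ k * (s ^ n * x * (s ^ n)⁻¹) * (s ^ k)⁻¹ = s ^ (n + k) * x * (s ^ (n + k))⁻¹ := by
    rw [add_comm, pow_add]
    group
  rwa [e] at h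

/-- the increasing union of the `s ^ (-n) W2 s ^ n` -/
def NOZ_N (hs : ∀ x ∈ W2, s * x * s⁻¹ ∈ W2) : Subgroup G where
  carrier := {x | ∃ n : ℕ, s ^ n * x * (s ^ n)⁻¹ ∈ W2}
  mul_mem' := by
    rintro x y ⟨n, hn⟩ ⟨m, hm⟩
    refine ⟨max n m, ?_⟩
    have h1 := NOZ_mono s W2 hs (le_max_left n m) hn
    have h2 := NOZ_mono s W2 hs (le_max_right n m) hm
    have h3 := W2.mul_mem h1 h2
    have e : s ^ (max n m) * x * (s ^ (max n m))⁻¹ * (s ^ (max n m) * y * (s ^ (max n m))⁻¹) =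
        s ^ (max n m) * (x * y) * (s ^ (max n m))⁻¹ := by group
    rwa [e] at h3
  one_mem' := ⟨0, by simp [W2.one_mem]⟩
  inv_mem' := by
    rintro x ⟨n, hn⟩
    refine ⟨n, ?_⟩
    have h := W2.inv_mem hn
    have e : (s ^ n * x * (s ^ n)⁻¹)⁻¹ = s ^ n * x⁻¹ * (s ^ n)⁻¹ := by group
    rwa [e] at h

variable (hs : ∀ x ∈ W2, s * x * s⁻¹ ∈ W2)

theorem NOZ_conj1 {x : G} (hx : x ∈ NOZ_N s W2 hs) : s * x * s⁻¹ ∈ NOZ_N s W2 hs := by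
  obtain ⟨n, hn⟩ := hx
  refine ⟨n, ?_⟩
  have h := hs _ hn
  have e : s * (s ^ n * x * (s ^ n)⁻¹) * s⁻¹ = s ^ n * (s * x * s⁻¹) * (s ^ n)⁻¹ := by
    have e1 : s * s ^ n = s ^ n * s := by rw [← pow_succ', pow_succ]
    have e2 : (s ^ n)⁻¹ * s⁻¹ = s⁻¹ * (s ^ n)⁻¹ := by
      rw [← mul_inv_rev, ← mul_inv_rev, e1]
    calc s * (s ^ n * x * (s ^ n)⁻¹) * s⁻¹ = (s * s ^ n) * x * ((s ^ n)⁻¹ * s⁻¹) := by group
      _ = (s ^ n * s) * x * (s⁻¹ * (s ^ n)⁻¹) := by rw [e1, e2]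
      _ = s ^ n * (s * x * s⁻¹) * (s ^ n)⁻¹ := by group
  rwa [e] at h

theorem NOZ_conj2 {x : G} (hx : x ∈ NOZ_N s W2 hs) : s⁻¹ * x * s ∈ NOZ_N s W2 hs := by
  obtain ⟨n, hn⟩ := hx
  refine ⟨n + 1, ?_⟩
  have e : s ^ (n + 1) * (s⁻¹ * x * s) * (s ^ (n + 1))⁻¹ = s ^ n * x * (s ^ n)⁻¹ := by
    rw [pow_succ]
    group
  rwa [e]

theorem NOZ_conjn (n : ℕ) {x : G} (hx : x ∈ NOZ_N s W2 hs) :
    s ^ n * x * (s ^ n)⁻¹ ∈ NOZ_N s W2 hs ∧ (s ^ n)⁻¹ * x * s ^ n ∈ NOZ_N s W2 hs := by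
  induction n with
  | zero => simpa using hx
  | succ n ih =>
    constructor
    · have h := NOZ_conj1 s W2 hs ih.1
      have e : s * (s ^ n * x * (s ^ n)⁻¹) * s⁻¹ = s ^ (n + 1) * x * (s ^ (n + 1))⁻¹ := by
        rw [pow_succ']
        group
      rwa [e] at h
    · have h := NOZ_conj2 s W2 hs ih.2
      have e : s⁻¹ * ((s ^ n)⁻¹ * x * s ^ n) * s = (s ^ (n + 1))⁻¹ * x * s ^ (n + 1) := by
        rw [pow_succ]
        group
      rwa [e] at h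

theorem NOZ_conjz (k : ℤ) {x : G} (hx : x ∈ NOZ_N s W2 hs) :
    s ^ k * x * (s ^ k)⁻¹ ∈ NOZ_N s W2 hs := by
  obtain ⟨n, rfl | rfl⟩ := k.eq_nat_or_neg
  · have := (NOZ_conjn s W2 hs n hx).1
    rwa [zpow_natCast]
  · have := (NOZ_conjn s W2 hs n hx).2
    rw [zpow_neg, zpow_natCast, inv_inv]
    exact this

/-- no power of `s` is in `N` -/
theorem NOZ_inj {V : Subgroup G} (hV : ∀ x ∈ W2, s * x * s⁻¹ ∈ V) {w : G} (hw : w ∈ W2)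
    (hwV : w ∉ V) {k : ℤ} (hk : s ^ k ∈ NOZ_N s W2 hs) : k = 0 := by
  have key : ∀ n : ℕ, s ^ (n + 1) ∈ NOZ_N s W2 hs → False := by
    rintro n ⟨m, hm⟩
    have e1 : s ^ m * s ^ (n + 1) * (s ^ m)⁻¹ = s ^ (n + 1) := by
      rw [← pow_add, add_comm, pow_add, mul_inv_cancel_right]
    rw [e1] at hm
    have h1 : (s ^ (n + 1))⁻¹ * w * s ^ (n + 1) ∈ W2 :=
      W2.mul_mem (W2.mul_mem (W2.inv_mem hm) hw) hm
    have h2 := NOZ_pow s W2 hs n _ h1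
    have h3 := hV _ h2
    apply hwV
    have e2 : s * (s ^ n * ((s ^ (n + 1))⁻¹ * w * s ^ (n + 1)) * (s ^ n)⁻¹) * s⁻¹ = w := by
      rw [pow_succ']
      group
    rwa [e2] at h3
  obtain ⟨n, hn⟩ := k.eq_nat_or_neg
  rcases n with _ | n
  · rcases hn with h | h
    · simpa using h
    · simpa using h
  · exfalso
    rcases hn with rfl | rfl
    · apply key n
      have := hk
      rwa [zpow_natCast] at this
    · apply key n
      have := (NOZ_N s W2 hs).inv_mem hk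
      rwa [zpow_neg, inv_inv, zpow_natCast] at this

/-- `N` extended by the powers of `s` -/
def NOZ_H : Subgroup G where
  carrier := {x | ∃ k : ℤ, x * (s ^ k)⁻¹ ∈ NOZ_N s W2 hs}
  mul_mem' := by
    rintro x y ⟨k, hk⟩ ⟨l, hl⟩
    refine ⟨k + l, ?_⟩
    have h := (NOZ_N s W2 hs).mul_mem hk (NOZ_conjz s W2 hs k hl)
    have e : x * (s ^ k)⁻¹ * (s ^ k * (y * (s ^ l)⁻¹) * (s ^ k)⁻¹) = x * y * (s ^ (k + l))⁻¹ := by
      rw [add_comm, zpow_add]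
      group
    rwa [e] at h
  one_mem' := ⟨0, by simp [(NOZ_N s W2 hs).one_mem]⟩
  inv_mem' := by
    rintro x ⟨k, hk⟩
    refine ⟨-k, ?_⟩
    have h := NOZ_conjz s W2 hs (-k) ((NOZ_N s W2 hs).inv_mem hk)
    have e : s ^ (-k) * (x * (s ^ k)⁻¹)⁻¹ * (s ^ (-k))⁻¹ = x⁻¹ * (s ^ (-k))⁻¹ := by
      rw [zpow_neg]
      group
    rwa [e] at h

theorem NOZ_uniq (hinj : ∀ k : ℤ, s ^ k ∈ NOZ_N s W2 hs → k = 0) {x : G} {k l : ℤ}
    (hk : x * (s ^ k)⁻¹ ∈ NOZ_N s W2 hs) (hl : x * (s ^ l)⁻¹ ∈ NOZ_N s W2 hs) : k = l := by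
  have h := (NOZ_N s W2 hs).mul_mem ((NOZ_N s W2 hs).inv_mem hl) hk
  have e : (x * (s ^ l)⁻¹)⁻¹ * (x * (s ^ k)⁻¹) = s ^ (l - k) := by
    rw [zpow_sub]
    group
  rw [e] at h
  have := hinj _ h
  omega

theorem NOZ_hom (hinj : ∀ k : ℤ, s ^ k ∈ NOZ_N s W2 hs → k = 0) :
    ∃ φ : NOZ_H s W2 hs →* Multiplicative ℤ, Function.Surjective φ ∧
      NOZ_N s W2 hs ≤ φ.ker.map (NOZ_H s W2 hs).subtype := by
  have hch : ∀ x : NOZ_H s W2 hs, ∃ k : ℤ, (x : G) * (s ^ k)⁻¹ ∈ NOZ_N s W2 hs := fun x => x.2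
  choose κ hκ using hch
  have hu : ∀ (x : NOZ_H s W2 hs) (k : ℤ), (x : G) * (s ^ k)⁻¹ ∈ NOZ_N s W2 hs → κ x = k :=
    fun x k hk => NOZ_uniq s W2 hs hinj (hκ x) hk
  let φ : NOZ_H s W2 hs →* Multiplicative ℤ := MonoidHom.mk' (fun x => Multiplicative.ofAdd (κ x))
    (by
      intro x y
      rw [← ofAdd_add]
      congr 1
      refine hu _ _ ?_
      have h := (NOZ_N s W2 hs).mul_mem (hκ x) (NOZ_conjz s W2 hs (κ x) (hκ y))
      have e : (x : G) * (s ^ κ x)⁻¹ * (s ^ κ x * ((y : G) * (s ^ κ y)⁻¹) * (s ^ κ x)⁻¹) =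
          ((x * y : NOZ_H s W2 hs) : G) * (s ^ (κ x + κ y))⁻¹ := by
        rw [Subgroup.coe_mul, add_comm, zpow_add]
        group
      rwa [e] at h)
  refine ⟨φ, fun m => ?_, fun x hx => ?_⟩
  · have hm : s ^ (Multiplicative.toAdd m) ∈ NOZ_H s W2 hs :=
      ⟨Multiplicative.toAdd m, by rw [mul_inv_cancel]; exact (NOZ_N s W2 hs).one_mem⟩
    refine ⟨⟨_, hm⟩, ?_⟩
    show Multiplicative.ofAdd (κ ⟨_, hm⟩) = m
    rw [hu ⟨_, hm⟩ (Multiplicative.toAdd m)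
      (by rw [mul_inv_cancel]; exact (NOZ_N s W2 hs).one_mem)]
    rfl
  · have hxH : x ∈ NOZ_H s W2 hs := ⟨0, by simpa using hx⟩
    rw [Subgroup.mem_map]
    refine ⟨⟨x, hxH⟩, ?_, rfl⟩
    rw [MonoidHom.mem_ker]
    show Multiplicative.ofAdd (κ ⟨x, hxH⟩) = 1
    rw [hu ⟨x, hxH⟩ 0 (by simpa using hx)]
    rfl

end Z

/-- Group theoretic core: if the filter has a base which is closed under conjugation and
intersection and whose members have no infinite cyclic quotient with kernel in the filter, then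
PP implies that there is a least member. -/
theorem exists_least_noZ {S : Set (Subgroup G)} (hS : IsNF S) (hP : PPG S)
    (B : Set (Subgroup G)) (hBS : B ⊆ S) (hBcof : ∀ H ∈ S, ∃ V ∈ B, V ≤ H)
    (hBconj : ∀ V ∈ B, ∀ g : G, cj g V ∈ B) (hBinf : ∀ V ∈ B, ∀ W ∈ B, V ⊓ W ∈ B)
    (hZ : ∀ V ∈ B, ∀ φ : V →* Multiplicative ℤ, Function.Surjective φ →
      φ.ker.map V.subtype ∉ S) :
    ∃ N ∈ S, ∀ H ∈ S, N ≤ H := by
  by_contra hno
  push Not at hno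
  obtain ⟨W1, hW1⟩ := exists_star hS hP hS.top_mem
  obtain ⟨W, hWB, hWW1⟩ := hBcof W1 hW1.1
  have hWS : W ∈ S := hBS hWB
  have hWu : ∀ H ∈ S, ∃ g : G, cj g W ≤ H := by
    intro H hH
    obtain ⟨g, -, hg⟩ := hW1.2.2 H hH
    refine ⟨g, fun x hx => hg ?_⟩
    rw [mem_cj] at hx ⊢
    exact hWW1 hx
  obtain ⟨W2, hW2⟩ := exists_star hS hP hWS
  obtain ⟨V, hVS, hV⟩ := hno W2 hW2.1
  obtain ⟨w, hw, hwV⟩ := SetLike.not_le_iff_exists.1 hV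
  obtain ⟨s, hsW, hs⟩ := hW2.2.2 (V ⊓ W2) (hS.inf_mem hVS hW2.1)
  have hs' : ∀ x ∈ W2, s * x * s⁻¹ ∈ V ⊓ W2 := by
    intro x hx
    apply hs
    rw [mem_cj]
    have e : s⁻¹ * (s * x * s⁻¹) * s = x := by group
    rwa [e]
  have hs1 : ∀ x ∈ W2, s * x * s⁻¹ ∈ W2 := fun x hx => (hs' x hx).2
  have hs2 : ∀ x ∈ W2, s * x * s⁻¹ ∈ V := fun x hx => (hs' x hx).1
  have hinj : ∀ k : ℤ, s ^ k ∈ NOZ_N s W2 hs1 → k = 0 := fun k hk =>
    NOZ_inj s W2 hs1 hs2 hw hwV hk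
  obtain ⟨φ, hφ, hker⟩ := NOZ_hom s W2 hs1 hinj
  have hNS : NOZ_N s W2 hs1 ∈ S := by
    refine hS.mono hW2.1 fun x hx => ⟨0, ?_⟩
    simpa using hx
  have hNW : NOZ_N s W2 hs1 ≤ W := by
    rintro x ⟨n, hn⟩
    have h1 := hW2.2.1 hn
    have h2 : (s ^ n)⁻¹ * (s ^ n * x * (s ^ n)⁻¹) * s ^ n ∈ W :=
      W.mul_mem (W.mul_mem (W.inv_mem (W.pow_mem hsW n)) h1) (W.pow_mem hsW n)
    have e : (s ^ n)⁻¹ * (s ^ n * x * (s ^ n)⁻¹) * s ^ n = x := by group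
    rwa [e] at h2
  have hHS : NOZ_H s W2 hs1 ∈ S := by
    refine hS.mono hNS fun x hx => ⟨0, ?_⟩
    simpa using hx
  have hHW : NOZ_H s W2 hs1 ≤ W := by
    rintro x ⟨k, hk⟩
    have h1 := W.mul_mem (hNW hk) (W.zpow_mem hsW k)
    rwa [inv_mul_cancel_right] at h1
  obtain ⟨U, hUB, hUH⟩ := hBcof _ hHS
  obtain ⟨a, ha⟩ := NOZ_mem hS hP hWu (hBS hUB) hHS hUH hHW
  have hHB : NOZ_H s W2 hs1 ∈ B := by
    rw [ha]
    exact hBinf _ hWB _ (hBconj _ hUB a)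
  exact hZ _ hHB φ hφ (hS.mono hNS hker)

end Vale.Agent.P323
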