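import Vale.Agent.P323.Uni2

/-! P323, module SNF: the stabilizers of elements of the model form a normal filter. -/

namespace Vale.Agent.P323

universe u

variable {A G : Type u} [Group G] [MulAction G A]

/-- SNF -/
theorem stabs_sub (F : NormalFilter G) {H : Subgroup G} (h : H ∈ Stabs F A) :
    H ∈ F.sets := by
  obtain ⟨x, hx, rfl⟩ := h
  cases hx with
  | intro _ sym _ => exact sym

/-- SNF. `⊤` is the stabilizer of the empty set `range (PEmpty.elim)`. `H ⊓ K` = stabilizer of
the pair. `cj g H` = stabilizer of `g • x`. Upward closure: if `stab x ≤ H` then `H` is the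
stabilizer of the set `{h • x : h ∈ H}` = `range (fun h : H => (h : G) • x)`, which is in the
model since its stabilizer contains `stab x ∈ F.sets` (`HS_range` with `K = H`, `F.mono`). -/
theorem stabs_isNF (F : NormalFilter G) : IsNF (Stabs F A) where
  top_mem := by
    refine ⟨V.range (fun i : PEmpty.{u + 1} => i.elim), ?_, ?_⟩
    · exact HS_range F _ (fun i => i.elim) ⊤ F.top_mem (fun _ _ i => i.elim)
    · exact top_le_iff.1 (le_stab_range _ ⊤ (fun _ _ i => i.elim))
  mono := by
    intro H K hH hHK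
    have hHF : H ∈ F.sets := stabs_sub F hH
    obtain ⟨x, hx, hxH⟩ := hH
    have hinv : ∀ k ∈ K, ∀ i : K, ∃ j : K, k • ((i : G) • x) = (j : G) • x := by
      intro k hk i
      exact ⟨⟨k * i, K.mul_mem hk i.2⟩, (mul_smul k (i : G) x).symm⟩
    refine ⟨V.range (fun h : K => (h : G) • x), ?_, le_antisymm ?_ ?_⟩
    · exact HS_range F _ (fun i => HS_smul F _ hx) K (F.mono hHF hHK) hinv
    · intro g hg
      have h1 : x ∈ V.range (fun h : K => (h : G) • x) :=
        (V.mem_range _ _).2 ⟨1, one_smul G x⟩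
      have h2 : g • x ∈ g • V.range (fun h : K => (h : G) • x) := (smul_mem_smul g _ _).2 h1
      rw [MulAction.mem_stabilizer_iff.1 hg] at h2
      obtain ⟨h, hh⟩ := (V.mem_range _ _).1 h2
      have h3 : (h : G)⁻¹ * g ∈ MulAction.stabilizer G x := by
        rw [MulAction.mem_stabilizer_iff, mul_smul, ← hh, inv_smul_smul]
      rw [hxH] at h3
      have h4 := K.mul_mem h.2 (hHK h3)
      rwa [mul_inv_cancel_left] at h4
    · exact le_stab_range _ K hinv
  inf_mem := by
    rintro H K ⟨x, hx, rfl⟩ ⟨y, hy, rfl⟩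
    refine ⟨V.pair x y, HS_pair F hx hy, ?_⟩
    ext g
    rw [Subgroup.mem_inf, MulAction.mem_stabilizer_iff, MulAction.mem_stabilizer_iff,
      MulAction.mem_stabilizer_iff, smul_pair, pair_inj]
  conj_mem := by
    rintro H g ⟨x, hx, rfl⟩
    exact ⟨g • x, HS_smul F g hx, MulAction.stabilizer_smul_eq_stabilizer_map_conj g x⟩

end Vale.Agent.P323
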