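import Vale.Agent.P323.Defs

/-! P323, module ST0. -/

namespace Vale.Agent.P323

universe u

/-- ST0: fast growing family of cardinals on a well-ordered type. -/
theorem exists_growing (J : Type u) [LinearOrder J] [WellFoundedLT J] (c : J → Cardinal.{u}) :
    ∃ κ : J → Cardinal.{u}, ∀ j,
      Cardinal.sum (fun i : {i : J // i < j} => c i.1 * κ i.1) < κ j := by
  have hwf : WellFounded (fun i j : J => i < j) := wellFounded_lt
  let step : (j : J) → ((i : J) → i < j → Cardinal.{u}) → Cardinal.{u} := fun j ih =>
    Order.succ (Cardinal.sum (fun i : {i : J // i < j} => c i.1 * ih i.1 i.2))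
  refine ⟨hwf.fix step, fun j => ?_⟩
  have h : hwf.fix step j =
      Order.succ (Cardinal.sum (fun i : {i : J // i < j} => c i.1 * hwf.fix step i.1)) :=
    hwf.fix_eq step j
  rw [h]
  exact Order.lt_succ _

end Vale.Agent.P323
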