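import Vale.Agent.P323.St0

/-! P323, module ST1. -/

namespace Vale.Agent.P323

universe u

variable {G : Type u} [Group G]

/-- ST1. `μ j` a type of cardinality `κ j` (`exists_growing` with `c j = #(G ⧸ K j)`),
`P = Σ j, μ j`. Use PPG for `K`, `X = {⟨p, k K_{p.1}⟩ : k ∈ K} ⊆ Σ p : P, G ⧸ K p.1`,
`Y = univ ⊆ Σ p : P, G ⧸ ⊤` and `f ⟨p, z⟩ = ⟨p, 1⟩`. The injection `J'` restricted to
`{⟨(j, m), 1⟩ : m ∈ μ j}` cannot take its values in the part with first index `< j` (which has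
cardinality at most `sum_{i<j} #(G ⧸ K i) * κ i`), so some value is `⟨(j', m'), k K_{j'}⟩` with
`j ≤ j'`; `K1` fixes the elements of `Y` so it fixes this value: `K1 ≤ cj k (K j')`. -/
theorem st1 {S : Set (Subgroup G)} (hS : IsNF S) (hP : PPG S) {K : Subgroup G} (hK : K ∈ S)
    (J : Type u) [LinearOrder J] [WellFoundedLT J] (Kj : J → Subgroup G)
    (hKj : ∀ j, Kj j ∈ S) :
    ∃ K1 ∈ S, ∀ j, ∃ j', j ≤ j' ∧ ∃ k ∈ K, K1 ≤ cj k (Kj j') := by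
  classical
  obtain ⟨κ, hκ⟩ := exists_growing J (fun j => Cardinal.mk (G ⧸ Kj j))
  let μ : J → Type u := fun j => (κ j).out
  have hμ : ∀ j, Cardinal.mk (μ j) = κ j := fun j => Cardinal.mk_out _
  let P : Type u := Σ j, μ j
  let X : Set (Σ p : P, G ⧸ Kj p.1) := {x | ∃ k ∈ K, x.2 = (k : G ⧸ Kj x.1.1)}
  have hsub : Subsingleton (G ⧸ (⊤ : Subgroup G)) := QuotientGroup.subsingleton_quotient_top
  have hone : ∀ (p : P) (a b : G ⧸ (⊤ : Subgroup G)),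
      (⟨p, a⟩ : Σ _ : P, G ⧸ (⊤ : Subgroup G)) = ⟨p, b⟩ := fun p a b => by
    rw [Subsingleton.elim a b]
  by_cases hne : Nonempty P
  swap
  · refine ⟨K, hK, fun j => absurd ?_ hne⟩
    have h0 : κ j ≠ 0 := ne_of_gt (lt_of_le_of_lt zero_le (hκ j))
    have h1 : Nonempty (μ j) := by
      rw [← Cardinal.mk_ne_zero_iff, hμ]
      exact h0
    exact ⟨⟨j, h1.some⟩⟩
  obtain ⟨K1, hK1, hK1K, jj, hj1, hj2, hj3⟩ := hP K hK P P (fun p => Kj p.1) (fun _ => ⊤)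
    (fun p => hKj p.1) (fun _ => hS.top_mem) X Set.univ
    (by
      rintro k hk ⟨p, z⟩ ⟨l, hl, hz⟩
      refine ⟨k * l, K.mul_mem hk hl, ?_⟩
      have hz' : z = (l : G ⧸ Kj p.1) := hz
      subst hz'
      rfl)
    (fun _ _ _ _ => Set.mem_univ _)
    (fun x => ⟨x.1, ((1 : G) : G ⧸ (⊤ : Subgroup G))⟩)
    (fun k _ x _ => hone _ _ _) (fun _ _ => Set.mem_univ _)
    (fun y _ => ⟨⟨y.1, ((1 : G) : G ⧸ Kj y.1.1)⟩, ⟨1, K.one_mem, rfl⟩, hone _ _ _⟩)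
    ⟨⟨hne.some, ((1 : G) : G ⧸ (⊤ : Subgroup G))⟩, Set.mem_univ _⟩
  refine ⟨K1, hK1, fun j => ?_⟩
  let w : μ j → (Σ _ : P, G ⧸ (⊤ : Subgroup G)) := fun m => ⟨⟨j, m⟩, ((1 : G) : G ⧸ (⊤ : Subgroup G))⟩
  have hw : Function.Injective w := by
    intro m m' h
    have h1 : (⟨j, m⟩ : P) = ⟨j, m'⟩ := congrArg Sigma.fst h
    exact eq_of_heq (Sigma.mk.inj h1).2
  obtain ⟨m, hm⟩ : ∃ m : μ j, j ≤ (jj (w m)).1.1 := by
    by_contra hcon
    push Not at hcon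
    let φ : μ j → (Σ i : {i : J // i < j}, (G ⧸ Kj i.1) × μ i.1) := fun m =>
      ⟨⟨(jj (w m)).1.1, hcon m⟩, ((jj (w m)).2, (jj (w m)).1.2)⟩
    let ψ : (Σ i : {i : J // i < j}, (G ⧸ Kj i.1) × μ i.1) → (Σ p : P, G ⧸ Kj p.1) := fun x =>
      ⟨⟨x.1.1, x.2.2⟩, x.2.1⟩
    have hψ : ∀ m, ψ (φ m) = jj (w m) := fun m => rfl
    have hφ : Function.Injective φ := by
      intro a b hab
      have h1 : jj (w a) = jj (w b) := by
        rw [← hψ a, ← hψ b, hab]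
      exact hw (hj2 (Set.mem_univ _) (Set.mem_univ _) h1)
    have h1 := Cardinal.mk_le_of_injective hφ
    rw [hμ, Cardinal.mk_sigma] at h1
    have h2 : Cardinal.sum (fun i : {i : J // i < j} => Cardinal.mk ((G ⧸ Kj i.1) × μ i.1)) =
        Cardinal.sum (fun i : {i : J // i < j} => Cardinal.mk (G ⧸ Kj i.1) * κ i.1) := by
      congr 1
      funext i
      rw [Cardinal.mk_prod, Cardinal.lift_id, Cardinal.lift_id, hμ]
    rw [h2] at h1
    exact absurd (hκ j) (not_lt.2 h1)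
  obtain ⟨k, hk, hz⟩ := hj1 (w m) (Set.mem_univ _)
  refine ⟨(jj (w m)).1.1, hm, k, hk, fun g hg => ?_⟩
  have h1 : jj (w m) = g • jj (w m) := by
    rw [← hj3 g hg (w m) (Set.mem_univ _)]
    congr 1
    exact hone _ _ _
  generalize hx : jj (w m) = x at h1 hz
  obtain ⟨p, z⟩ := x
  have hz' : z = (k : G ⧸ Kj p.1) := hz
  subst hz'
  have h2 : ((k : G) : G ⧸ Kj p.1) = ((g * k : G) : G ⧸ Kj p.1) :=
    eq_of_heq (Sigma.mk.inj h1).2
  rw [mem_cj]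
  rw [QuotientGroup.eq] at h2
  rw [mul_assoc]
  exact h2

end Vale.Agent.P323
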