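import Vale.Agent.P323.Crit
import Vale.Agent.P323.Emb2
import Vale.Agent.P323.ACM
import Vale.Agent.P323.Code

/-!
P323: permutation models given by a group of permutations and an invariant ideal of supports.
-/

namespace Vale.Agent.P323

universe u

/-- The filter of subgroups of `G` generated by the pointwise stabilizers of the members of
an invariant family `I` of sets of atoms which is closed under unions. -/
def suppG {A : Type u} (G : Type u) [Group G] [MulAction G A] (I : Set (Set A))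
    (hne : ∃ E, E ∈ I) (hun : ∀ E ∈ I, ∀ E' ∈ I, E ∪ E' ∈ I)
    (hinv : ∀ E ∈ I, ∀ g : G, (fun a => g • a) '' E ∈ I) : NormalFilter G where
  sets := {H | ∃ E ∈ I, ∀ g : G, (∀ a ∈ E, g • a = a) → g ∈ H}
  top_mem := by
    obtain ⟨E, hE⟩ := hne
    exact ⟨E, hE, fun _ _ => Subgroup.mem_top _⟩
  mono := by
    rintro H K ⟨E, hE, h⟩ hHK
    exact ⟨E, hE, fun g hg => hHK (h g hg)⟩
  inf_mem := by
    rintro H K ⟨E, hE, h⟩ ⟨E', hE', h'⟩
    exact ⟨E ∪ E', hun E hE E' hE', fun g hg =>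
      ⟨h g fun a ha => hg a (Or.inl ha), h' g fun a ha => hg a (Or.inr ha)⟩⟩
  conj_mem := by
    rintro H g ⟨E, hE, h⟩
    refine ⟨(fun a => g • a) '' E, hinv E hE g, fun k hk => ?_⟩
    show k ∈ cj g H
    rw [mem_cj]
    apply h
    intro a ha
    have h1 : k • g • a = g • a := hk (g • a) ⟨a, ha, rfl⟩
    rw [mul_smul, mul_smul, h1, inv_smul_smul]

section

variable {A G : Type u} [Group G] [MulAction G A]

/-- the pointwise stabilizer of a set of atoms -/
def fxG (G : Type u) [Group G] [MulAction G A] (E : Set A) : Subgroup G where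
  carrier := {g | ∀ a ∈ E, g • a = a}
  mul_mem' := by
    intro g h hg hh a ha
    rw [mul_smul, hh a ha, hg a ha]
  one_mem' := fun a _ => one_smul G a
  inv_mem' := by
    intro g hg a ha
    rw [inv_smul_eq_iff]
    exact (hg a ha).symm

variable (I : Set (Set A)) (hne : ∃ E, E ∈ I)
    (hun : ∀ E ∈ I, ∀ E' ∈ I, E ∪ E' ∈ I)
    (hinv : ∀ E ∈ I, ∀ g : G, (fun a => g • a) '' E ∈ I)

theorem SG_atom_inj {a b : A} (h : V.atom a = V.atom b) : a = b := Quotient.exact h

theorem SG_atom_mem {a : A} {y : V A} (h : y ∈ V.atom a) : False := by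
  induction y using Quotient.inductionOn with
  | _ y => exact h

theorem SG_HS_atom (hsing : ∀ a, {a} ∈ I) (a : A) :
    HS (suppG G I hne hun hinv) (V.atom a) := by
  refine HS.intro _ ⟨{a}, hsing a, fun g hg => ?_⟩ fun y hy => (SG_atom_mem hy).elim
  rw [MulAction.mem_stabilizer_iff]
  show V.atom (g • a) = V.atom a
  rw [hg a rfl]

theorem SG_stab (hsing : ∀ a, {a} ∈ I) {E : Set A} (hE : E ∈ I) :
    fxG G E ∈ Stabs (suppG G I hne hun hinv) A := by
  obtain ⟨c, hc1, hc2, hc3⟩ := exists_code (suppG G I hne hun hinv) A E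
  have hfx : ∀ k ∈ fxG G E, ∀ i : E, k • V.pair (c i) (V.atom (i : A)) =
      V.pair (c i) (V.atom (i : A)) := by
    intro k hk i
    rw [smul_pair, hc2]
    show V.pair (c i) (V.atom (k • (i : A))) = _
    rw [hk i i.2]
  refine ⟨V.range (fun i : E => V.pair (c i) (V.atom (i : A))), ?_, le_antisymm ?_ ?_⟩
  · refine HS_range _ _ (fun i => HS_pair _ (hc3 i) (SG_HS_atom I hne hun hinv hsing i))
      (fxG G E) ⟨E, hE, fun g hg => hg⟩ fun k hk i => ⟨i, hfx k hk i⟩
  · intro g hg a ha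
    rw [MulAction.mem_stabilizer_iff] at hg
    have h1 : V.pair (c ⟨a, ha⟩) (V.atom a) ∈
        V.range (fun i : E => V.pair (c i) (V.atom (i : A))) :=
      (V.mem_range _ _).2 ⟨⟨a, ha⟩, rfl⟩
    have h2 := (smul_mem_smul g _ _).2 h1
    rw [hg, smul_pair, hc2] at h2
    obtain ⟨b, hb⟩ := (V.mem_range _ _).1 h2
    obtain ⟨h3, h4⟩ := pair_inj.1 hb
    have h5 := hc1 h3
    rw [h5] at h4
    exact (SG_atom_inj (h4 : V.atom a = V.atom (g • a))).symm
  · exact le_stab_range _ _ fun k hk i => ⟨i, hfx k hk i⟩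

theorem SG_inf (E E' : Set A) : fxG G E ⊓ fxG G E' = fxG G (E ∪ E') := by
  ext x
  constructor
  · rintro ⟨h1, h2⟩ a (ha | ha)
    · exact h1 a ha
    · exact h2 a ha
  · intro h
    exact ⟨fun a ha => h a (Or.inl ha), fun a ha => h a (Or.inr ha)⟩

/-- The criterion for models given by supports. -/
theorem pp_ac_supp (hsing : ∀ a, {a} ∈ I)
    (hcrit : ∀ E0 ∈ I, ∀ t : G, cj t (fxG G E0) = fxG G E0 →
      (∀ n : ℕ, 0 < n → t ^ n ∉ fxG G E0) →
      ∃ k : ℕ, 0 < k ∧ ∀ E ∈ I, fxG G E0 ⊔ Subgroup.zpowers (t ^ k) ≠ fxG G E)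
    (hPP : PPModel (suppG G I hne hun hinv) A) : ACModel (suppG G I hne hun hinv) A := by
  obtain ⟨N, hN, hmin⟩ := exists_least_of_base (stabs_isNF (A := A) _) (ppg_of_pp _ hPP)
    {H | ∃ E ∈ I, H = fxG G E} (by
      rintro H ⟨E, hE, rfl⟩
      exact SG_stab I hne hun hinv hsing hE) (by
      intro H hH
      obtain ⟨E, hE, h⟩ := stabs_sub _ hH
      exact ⟨fxG G E, ⟨E, hE, rfl⟩, fun g hg => h g hg⟩) (by
      rintro V ⟨E, hE, rfl⟩ g
      refine ⟨(fun a => g • a) '' E, hinv E hE g, ?_⟩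
      ext x
      rw [mem_cj]
      constructor
      · rintro h _ ⟨a, ha, rfl⟩
        have h1 := h a ha
        rw [mul_smul, mul_smul, inv_smul_eq_iff] at h1
        exact h1
      · intro h a ha
        have h1 : x • g • a = g • a := h (g • a) ⟨a, ha, rfl⟩
        rw [mul_smul, mul_smul, h1, inv_smul_smul]) (by
      rintro V ⟨E, hE, rfl⟩ W ⟨E', hE', rfl⟩ t ht hn
      rw [SG_inf] at ht hn ⊢
      obtain ⟨k, hk, h⟩ := hcrit (E ∪ E') (hun E hE E' hE') t ht hn
      refine ⟨k, hk, ?_⟩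
      rintro U ⟨E1, hE1, rfl⟩ U' ⟨E2, hE2, rfl⟩ h'
      rw [SG_inf] at h'
      exact h _ (hun E1 hE1 E2 hE2) h')
  exact ac_of_least _ N hN hmin

/-- No small orbits: if all points of the orbit of `b` under the pointwise stabilizer of a
support `E` are fixed by the pointwise stabilizer of some support, then `b` itself is fixed by
the pointwise stabilizer of `E`. -/
theorem pp_ac_noSmallOrbit (hsing : ∀ a, {a} ∈ I)
    (hso : ∀ E ∈ I, ∀ E' ∈ I, ∀ b : A,
      (∀ g : G, (∀ a ∈ E, g • a = a) → ∀ h : G, (∀ a ∈ E', h • a = a) → h • g • b = g • b) →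
      ∀ g : G, (∀ a ∈ E, g • a = a) → g • b = b)
    (hPP : PPModel (suppG G I hne hun hinv) A) : ACModel (suppG G I hne hun hinv) A := by
  refine pp_ac_supp I hne hun hinv hsing ?_ hPP
  intro E0 hE0 t ht htn
  refine ⟨1, one_pos, fun E hE h => ?_⟩
  rw [pow_one] at h
  apply htn 1 one_pos
  rw [pow_one]
  intro b hb
  have htE : t ∈ fxG G E := by
    rw [← h]
    exact le_sup_right (a := fxG G E0) (Subgroup.mem_zpowers _)
  refine hso E hE E0 hE0 b ?_ t htE
  intro g hg k hk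
  have hg' : g ∈ fxG G E0 ⊔ Subgroup.zpowers (t ^ 1) := by
    rw [pow_one, h]
    exact hg
  rw [CRIT_mem_sup ht] at hg'
  obtain ⟨j, hj⟩ := hg'
  have hj2 : t ^ (-(((1 : ℕ) : ℤ) * j)) * (g * (t ^ (((1 : ℕ) : ℤ) * j))⁻¹) *
      (t ^ (-(((1 : ℕ) : ℤ) * j)))⁻¹ ∈ fxG G E0 := CRIT_conjz ht _ hj
  have e1 : t ^ (-(((1 : ℕ) : ℤ) * j)) * (g * (t ^ (((1 : ℕ) : ℤ) * j))⁻¹) *
      (t ^ (-(((1 : ℕ) : ℤ) * j)))⁻¹ = t ^ (-j) * g := by
    rw [Nat.cast_one, one_mul, zpow_neg]
    group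
  rw [e1] at hj2
  have h2 : g • b = t ^ j • b := by
    have h3 := hj2 b hb
    rw [mul_smul, zpow_neg, inv_smul_eq_iff] at h3
    exact h3
  rw [h2]
  have hk2 : t ^ (-j) * k * (t ^ (-j))⁻¹ ∈ fxG G E0 := CRIT_conjz ht _ hk
  have h4 := hk2 b hb
  rw [zpow_neg, inv_inv, mul_smul, mul_smul, inv_smul_eq_iff] at h4
  exact h4

/-- No element of `G` has a cycle of length dividing `n` other than fixed points. -/
theorem pp_ac_root (hsing : ∀ a, {a} ∈ I) (n : ℕ) (hn : 2 ≤ n)
    (hroot : ∀ (g : G) (a : A), g ^ n • a = a → g • a = a)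
    (hPP : PPModel (suppG G I hne hun hinv) A) : ACModel (suppG G I hne hun hinv) A := by
  refine pp_ac_supp I hne hun hinv hsing ?_ hPP
  intro E0 _ t ht htn
  refine ⟨n, by omega, fun E _ h => ?_⟩
  apply CRIT_not_mem ht htn hn
  rw [h]
  intro a ha
  apply hroot
  have h1 : t ^ n ∈ fxG G E := by
    rw [← h]
    exact le_sup_right (a := fxG G E0) (Subgroup.mem_zpowers _)
  exact h1 a ha

/-- Groups of automorphisms of a linearly ordered set of atoms. -/
theorem pp_ac_linear [LinearOrder A] (hmono : ∀ (g : G) (a b : A), a ≤ b → g • a ≤ g • b)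
    (hsing : ∀ a, {a} ∈ I)
    (hPP : PPModel (suppG G I hne hun hinv) A) : ACModel (suppG G I hne hun hinv) A := by
  refine pp_ac_root I hne hun hinv hsing 2 le_rfl ?_ hPP
  intro g a h
  rw [pow_two, mul_smul] at h
  rcases le_total a (g • a) with h1 | h1
  · have h2 := hmono g _ _ h1
    rw [h] at h2
    exact le_antisymm h2 h1
  · have h2 := hmono g _ _ h1
    rw [h] at h2
    exact le_antisymm h1 h2

end

end Vale.Agent.P323
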