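import Vale.Agent.P323.SuppG

/-!
P323: the general criterion for permutation models, and torsion groups.
-/

namespace Vale.Agent.P323

universe u

/-- The criterion. -/
theorem pp_ac_crit {A G : Type u} [Group G] [MulAction G A] (F : NormalFilter G)
    (B : Set (Subgroup G)) (hBS : B ⊆ Stabs F A) (hBcof : ∀ H ∈ Stabs F A, ∃ V ∈ B, V ≤ H)
    (hBconj : ∀ V ∈ B, ∀ g : G, V.map (MulAut.conj g).toMonoidHom ∈ B)
    (hcrit : ∀ V ∈ B, ∀ V' ∈ B, ∀ t : G,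
      (V ⊓ V').map (MulAut.conj t).toMonoidHom = V ⊓ V' →
      (∀ n : ℕ, 0 < n → t ^ n ∉ V ⊓ V') →
      ∃ k : ℕ, 0 < k ∧ ∀ U ∈ B, ∀ U' ∈ B, (V ⊓ V') ⊔ Subgroup.zpowers (t ^ k) ≠ U ⊓ U')
    (hPP : PPModel F A) : ACModel F A := by
  obtain ⟨N, hN, hmin⟩ := exists_least_of_base (stabs_isNF (A := A) F) (ppg_of_pp F hPP) B hBS
    hBcof hBconj hcrit
  exact ac_of_least F N hN hmin

/-- Torsion groups. -/
theorem pp_ac_torsion {A G : Type u} [Group G] [MulAction G A] (F : NormalFilter G)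
    (hG : ∀ g : G, ∃ n : ℕ, 0 < n ∧ g ^ n = 1) (hPP : PPModel F A) : ACModel F A := by
  have hNF := stabs_isNF (A := A) F
  refine pp_ac_crit F (Stabs F A) le_rfl (fun H hH => ⟨H, hH, le_rfl⟩)
    (fun V hV g => hNF.conj_mem g hV) ?_ hPP
  intro V _ V' _ t _ h
  obtain ⟨n, hn, h1⟩ := hG t
  exact absurd (by rw [h1]; exact (V ⊓ V').one_mem) (h n hn)

end Vale.Agent.P323
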