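import Vale.Agent.P323.Defs

/-! P323, module UNI1. -/

namespace Vale.Agent.P323

universe u

variable {A G : Type u} [Group G] [MulAction G A]

/-- the class of a name -/
def UNI1_mk (x : Pre A) : V A := Quotient.mk (Pre.setoid A) x

theorem UNI1_mk_eq {x y : Pre A} : UNI1_mk x = UNI1_mk y ↔ Pre.Eqv x y :=
  ⟨fun h => Quotient.exact h, fun h => Quotient.sound h⟩

theorem UNI1_cases (x : V A) : x.IsAtom ∨ ∃ (ι : Type u) (f : ι → Pre A),
    x = UNI1_mk (Pre.set ι f) := by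
  induction x using Quotient.inductionOn with
  | _ x =>
    cases x with
    | atom a => exact Or.inl ⟨a, rfl⟩
    | set ι f => exact Or.inr ⟨ι, f, rfl⟩

theorem UNI1_set_not_atom {ι : Type u} (f : ι → Pre A) :
    ¬ (UNI1_mk (Pre.set ι f)).IsAtom := by
  rintro ⟨a, ha⟩
  exact (Quotient.exact ha : Pre.Eqv (Pre.set ι f) (Pre.atom a))

theorem UNI1_mem_mk {ι : Type u} (f : ι → Pre A) (y : V A) :
    y ∈ UNI1_mk (Pre.set ι f) ↔
      ∃ i, UNI1_mk (f i) = y := by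
  induction y using Quotient.inductionOn with
  | _ y =>
    show (∃ i, Pre.Eqv y (f i)) ↔ _
    exact exists_congr fun i => ⟨fun h => (Quotient.sound h).symm,
      fun h => Quotient.exact (Eq.symm h)⟩

/-- UNI1: extensionality for sets. -/
theorem ext_set {x y : V A} (hx : ¬ x.IsAtom) (hy : ¬ y.IsAtom)
    (h : ∀ z, z ∈ x ↔ z ∈ y) : x = y := by
  obtain ⟨ι, f, rfl⟩ := (UNI1_cases x).resolve_left hx
  obtain ⟨κ, g, rfl⟩ := (UNI1_cases y).resolve_left hy
  apply Quotient.sound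
  refine ⟨fun i => ?_, fun j => ?_⟩
  · have h1 := (h (UNI1_mk (f i))).1 ((UNI1_mem_mk f _).2 ⟨i, rfl⟩)
    obtain ⟨j, hj⟩ := (UNI1_mem_mk g _).1 h1
    exact ⟨j, UNI1_mk_eq.1 hj.symm⟩
  · have h1 := (h (UNI1_mk (g j))).2 ((UNI1_mem_mk g _).2 ⟨j, rfl⟩)
    obtain ⟨i, hi⟩ := (UNI1_mem_mk f _).1 h1
    exact ⟨i, UNI1_mk_eq.1 hi⟩

/-- UNI1 -/
theorem range_not_atom {ι : Type u} (f : ι → V A) : ¬ (V.range f).IsAtom :=
  UNI1_set_not_atom _

/-- UNI1: every element has small many elements. -/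
theorem exists_family (x : V A) : ∃ (ι : Type u) (f : ι → V A), ∀ y, y ∈ x ↔ ∃ i, f i = y := by
  induction x using Quotient.inductionOn with
  | _ x =>
    cases x with
    | atom a =>
      refine ⟨PEmpty, PEmpty.elim, fun y => ⟨fun h => ?_, fun ⟨i, _⟩ => i.elim⟩⟩
      induction y using Quotient.inductionOn with
      | _ y => exact absurd h id
    | set ι f => exact ⟨ι, fun i => UNI1_mk (f i), fun y => UNI1_mem_mk f y⟩

theorem UNI1_smul_mk (g : G) {ι : Type u} (f : ι → Pre A) :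
    g • UNI1_mk (Pre.set ι f) = UNI1_mk (Pre.set ι fun i => Pre.act g (f i)) := rfl

theorem UNI1_smul_mk' (g : G) (x : Pre A) :
    g • UNI1_mk x = UNI1_mk (Pre.act g x) := rfl

theorem UNI1_smul_mem (g : G) (x y : V A) (h : y ∈ x) : g • y ∈ g • x := by
  induction x using Quotient.inductionOn with
  | _ x =>
    cases x with
    | atom a =>
      induction y using Quotient.inductionOn with
      | _ y => exact absurd h id
    | set ι f =>
      obtain ⟨i, rfl⟩ := (UNI1_mem_mk f y).1 h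
      exact (UNI1_mem_mk (fun i => Pre.act g (f i)) _).2 ⟨i, rfl⟩

/-- UNI1 -/
theorem smul_mem_smul (g : G) (x y : V A) : g • y ∈ g • x ↔ y ∈ x := by
  refine ⟨fun h => ?_, UNI1_smul_mem g x y⟩
  have := UNI1_smul_mem g⁻¹ _ _ h
  rwa [inv_smul_smul, inv_smul_smul] at this

theorem UNI1_smul_atom (g : G) (x : V A) (h : x.IsAtom) : (g • x).IsAtom := by
  obtain ⟨a, rfl⟩ := h
  exact ⟨g • a, rfl⟩

/-- UNI1 -/
theorem smul_atom_iff (g : G) (x : V A) : (g • x).IsAtom ↔ x.IsAtom := by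
  refine ⟨fun h => ?_, UNI1_smul_atom g x⟩
  have := UNI1_smul_atom g⁻¹ _ h
  rwa [inv_smul_smul] at this

theorem UNI1_mem_upair {x y z : V A} : z ∈ V.upair x y ↔ z = x ∨ z = y := by
  unfold V.upair
  rw [V.mem_range]
  constructor
  · rintro ⟨⟨b⟩, rfl⟩
    cases b
    · exact Or.inr rfl
    · exact Or.inl rfl
  · rintro (rfl | rfl)
    · exact ⟨⟨true⟩, rfl⟩
    · exact ⟨⟨false⟩, rfl⟩

theorem UNI1_upair_eq {x y x' y' : V A} (h : V.upair x y = V.upair x' y') :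
    (x = x' ∧ y = y') ∨ (x = y' ∧ y = x') := by
  have h1 : ∀ z, (z = x ∨ z = y) ↔ (z = x' ∨ z = y') := fun z => by
    rw [← UNI1_mem_upair, ← UNI1_mem_upair, h]
  have hx := (h1 x).1 (Or.inl rfl)
  have hy := (h1 y).1 (Or.inr rfl)
  have hx' := (h1 x').2 (Or.inl rfl)
  have hy' := (h1 y').2 (Or.inr rfl)
  aesop

/-- UNI1: Kuratowski pairs. -/
theorem pair_inj {x y x' y' : V A} : V.pair x y = V.pair x' y' ↔ x = x' ∧ y = y' := by
  refine ⟨fun h => ?_, fun ⟨h, h'⟩ => by rw [h, h']⟩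
  unfold V.pair at h
  rcases UNI1_upair_eq h with ⟨h1, h2⟩ | ⟨h1, h2⟩
  · have hx : x = x' := by
      rcases UNI1_upair_eq h1 with h | h
      · exact h.1
      · exact h.1
    subst hx
    rcases UNI1_upair_eq h2 with h | h
    · exact h
    · exact ⟨rfl, h.2.trans h.1⟩
  · rcases UNI1_upair_eq h1 with ⟨a, b⟩ | ⟨a, b⟩ <;>
    rcases UNI1_upair_eq h2 with ⟨c, d⟩ | ⟨c, d⟩ <;> aesop

end Vale.Agent.P323
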