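import Vale.Agent.P323.Uni1

/-! P323, module UNI2. -/

namespace Vale.Agent.P323

universe u

variable {A G : Type u} [Group G] [MulAction G A]

theorem uni2_mem_smul (g : G) (x z : V A) : z ∈ g • x ↔ g⁻¹ • z ∈ x := by
  have h := smul_mem_smul g x (g⁻¹ • z)
  rwa [smul_inv_smul] at h

/-- UNI2 (from UNI1) -/
theorem smul_range {ι : Type u} (g : G) (f : ι → V A) :
    g • V.range f = V.range (fun i => g • f i) := by
  refine ext_set ?_ (range_not_atom _) fun z => ?_
  · rw [smul_atom_iff]
    exact range_not_atom f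
  · rw [uni2_mem_smul, V.mem_range, V.mem_range]
    refine exists_congr fun i => ?_
    exact eq_inv_smul_iff

theorem uni2_smul_upair (g : G) (x y : V A) :
    g • V.upair x y = V.upair (g • x) (g • y) := by
  unfold V.upair
  rw [smul_range]
  congr 1
  funext b
  split_ifs <;> rfl

/-- UNI2 -/
theorem smul_pair (g : G) (x y : V A) : g • V.pair x y = V.pair (g • x) (g • y) := by
  unfold V.pair
  rw [uni2_smul_upair, uni2_smul_upair, uni2_smul_upair]

/-- UNI2 -/
theorem smul_range_eq {ι : Type u} (g : G) (f : ι → V A)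
    (h : ∀ i, ∃ j, g • f i = f j) (h' : ∀ i, ∃ j, g⁻¹ • f i = f j) :
    g • V.range f = V.range f := by
  refine ext_set ?_ (range_not_atom _) fun z => ?_
  · rw [smul_atom_iff]
    exact range_not_atom f
  · rw [uni2_mem_smul, V.mem_range, V.mem_range]
    constructor
    · rintro ⟨i, hi⟩
      obtain ⟨j, hj⟩ := h i
      refine ⟨j, ?_⟩
      rw [← hj, hi, smul_inv_smul]
    · rintro ⟨i, hi⟩
      obtain ⟨j, hj⟩ := h' i
      exact ⟨j, by rw [← hj, hi]⟩

variable (F : NormalFilter G)

theorem uni2_le_stab {ι : Type u} (f : ι → V A) (K : Subgroup G)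
    (h : ∀ k ∈ K, ∀ i, ∃ j, k • f i = f j) : K ≤ MulAction.stabilizer G (V.range f) := by
  intro k hk
  rw [MulAction.mem_stabilizer_iff]
  exact smul_range_eq k f (h k hk) (h k⁻¹ (K.inv_mem hk))

/-- UNI2 -/
theorem HS_range {ι : Type u} (f : ι → V A) (hf : ∀ i, HS F (f i)) (K : Subgroup G)
    (hK : K ∈ F.sets) (h : ∀ k ∈ K, ∀ i, ∃ j, k • f i = f j) : HS F (V.range f) := by
  refine HS.intro _ (F.mono hK (uni2_le_stab f K h)) fun y hy => ?_
  rw [V.mem_range] at hy
  obtain ⟨i, rfl⟩ := hy
  exact hf i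

/-- UNI2: a range invariant under K has stabilizer containing K. -/
theorem le_stab_range {ι : Type u} (f : ι → V A) (K : Subgroup G)
    (h : ∀ k ∈ K, ∀ i, ∃ j, k • f i = f j) : K ≤ MulAction.stabilizer G (V.range f) :=
  uni2_le_stab f K h

theorem uni2_stab {x : V A} (hx : HS F x) : MulAction.stabilizer G x ∈ F.sets := by
  cases hx with
  | intro _ h _ => exact h

theorem uni2_HS_upair {x y : V A} (hx : HS F x) (hy : HS F y) : HS F (V.upair x y) := by
  unfold V.upair
  refine HS_range F _ (fun b => ?_) (MulAction.stabilizer G x ⊓ MulAction.stabilizer G y)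
    (F.inf_mem (uni2_stab F hx) (uni2_stab F hy)) fun k hk b => ⟨b, ?_⟩
  · split_ifs
    · exact hx
    · exact hy
  · obtain ⟨h1, h2⟩ := Subgroup.mem_inf.1 hk
    split_ifs
    · exact h1
    · exact h2

/-- UNI2 -/
theorem HS_pair {x y : V A} (hx : HS F x) (hy : HS F y) : HS F (V.pair x y) :=
  uni2_HS_upair F (uni2_HS_upair F hx hx) (uni2_HS_upair F hx hy)

/-- UNI2 -/
theorem HS_smul (g : G) {x : V A} (hx : HS F x) : HS F (g • x) := by
  induction hx with
  | intro x h1 h2 ih =>
    refine HS.intro _ ?_ fun y hy => ?_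
    · rw [MulAction.stabilizer_smul_eq_stabilizer_map_conj]
      exact F.conj_mem g h1
    · rw [uni2_mem_smul] at hy
      have h3 := ih _ hy
      rwa [smul_inv_smul] at h3

end Vale.Agent.P323
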